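import Mathlib

/-!
# P230: the lattice `A_t^*` in the heights.

Instead of the cubic lattice in the `t` extra coordinates one uses the lattice with Gram matrix
`s² (I - 1 1ᵀ / (t + 1))`; its covolume is `s^t / √(t+1)`, so it costs only a factor `√(t+1)`, and the
squared distance of `x` to `0` is `s² Qf x`, with `Qf x ≤ μ² + ∑ (x i - μ)²` for every real `μ`.
Choosing `μ` by averaging, every centre has many good cube vertices: the mean cost with flip
probability `p` becomes `1/12 + p/2` instead of `max (p, 1/4)`.
-/

set_option autoImplicit false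

namespace Vale.Agent.Lib.P230.Star

/-- the quadratic form of `A_t^*` -/
noncomputable def Qf {t : ℕ} (x : Fin t → ℝ) : ℝ :=
  ∑ i, x i ^ 2 - (∑ i, x i) ^ 2 / ((t : ℝ) + 1)

/-- number of good leaves guaranteed by `leaf_count_star` -/
noncomputable def leafS (t : ℕ) : ℕ := ⌈(1 / 10 ^ 60 : ℝ) * (19 / 10 : ℝ) ^ t⌉₊

end Vale.Agent.Lib.P230.Star
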