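import Vale.Agent.Lib.P230.Star.Layer3
import Vale.Agent.Lib.P230.Assembly2

/-! The deterministic erosion step and the abstract covering step, where each height `u` may be
replaced by `u + N κ`, `κ ∈ {0,1}^t`. Copies of `erosion_cover2` and `abstract_cover2`. -/

set_option autoImplicit false
set_option linter.unusedSectionVars false
set_option linter.unusedSimpArgs false
set_option linter.unusedVariables false

open MeasureTheory Finset
open scoped ENNReal Matrix Classical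

namespace Vale.Agent.Lib.P230.Star

open Vale.Agent.Lib.P230

/-- Erosion with the window needed only on `[0,1/2]^t`, for a grid with `2 ≤ δ N`, and a choice of
the representative `u + N κ` of the height. -/
theorem erosion_cover3 {d t : ℕ} {G : Type} [AddCommGroup G] [Fintype G]
    (K' : Set ((Fin d → ℝ) × (Fin t → ℝ))) (hK' : Convex ℝ K') (δ : ℝ) (hδ0 : 0 < δ) (hδ1 : δ ≤ 1 / 4)
    (N : ℕ) (hN : 2 ≤ δ * N) (cy : Fin d → ℝ) (hc : (cy, (0 : Fin t → ℝ)) ∈ K')
    (hwin : ∀ x : Fin t → ℝ, (∀ i, 0 ≤ x i ∧ x i ≤ 1 / 2) → ∃ y, (y, x) ∈ K')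
    (C₁ : Set (Fin d → ℝ)) (hsym : ∀ a ∈ C₁, -a ∈ C₁)
    (hC : ∀ a ∈ C₁, ∀ a' ∈ C₁, (cy + δ⁻¹ • (a + a'), (0 : Fin t → ℝ)) ∈ K')
    (R : ℕ) (hR : 0 < R) (htiny : ∀ τ : Fin d → ℝ, (∀ i, 0 ≤ τ i ∧ τ i ≤ 1 / (R : ℝ)) → τ ∈ C₁)
    (h : (Fin d → ℤ) →+ G) (v : Fin t → G) (A : (Fin t → ℤ) → Finset (Fin d → ℤ))
    (hA : ∀ u : Fin t → ℤ, (∀ i, -(N : ℤ) ≤ u i ∧ u i < 2 * (N : ℤ)) → ∀ a ∈ A u,
      ((1 - 2 * δ)⁻¹ • ((fun i => (a i : ℝ) / R) - (2 * δ) • cy),
        (1 - 2 * δ)⁻¹ • (fun i => (u i : ℝ) / N)) ∈ K')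
    (Y₁ : Finset (Fin d → ℤ)) (hY₁ : ∀ m ∈ Y₁, (fun i => (m i : ℝ) / R) ∈ C₁)
    (hinj : Set.InjOn h Y₁)
    (hcount : ∀ u : Fin t → ℤ, (∀ i, 0 ≤ u i ∧ u i < (N : ℤ)) →
      ∃ κ : Fin t → ℤ, (∀ i, κ i = 0 ∨ κ i = 1) ∧
        (interU (N : ℤ) (fun u => univ \ (A u).image h) v
          (fun i => u i + κ i * (N : ℤ))).card < Y₁.card) :
    ∀ x : (Fin d → ℝ) × (Fin t → ℝ), ∃ (m : Fin d → ℤ) (z : Fin t → ℤ),
      h m = ∑ i, z i • v i ∧
      (x.1 - (fun i => (m i : ℝ) / R), x.2 - (fun i => (z i : ℝ))) ∈ K' := by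
  intro x
  by_contra hno
  push Not at hno
  have hN0 : (0 : ℝ) < N := by
    by_contra hneg
    have h0 : (N : ℝ) = 0 := le_antisymm (not_lt.mp hneg) (Nat.cast_nonneg N)
    rw [h0] at hN
    norm_num at hN
  have hR0 : (0 : ℝ) < R := by exact_mod_cast hR
  have hδ2 : 0 < 1 - 2 * δ := by linarith
  set q : Fin t → ℤ := fun i => ⌊x.2 i⌋ with hq
  set u : Fin t → ℤ := fun i => ⌊(N : ℝ) * Int.fract (x.2 i)⌋ with hu
  set e : Fin t → ℝ := fun i => Int.fract (x.2 i) - (u i : ℝ) / N with he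
  have hu0 : ∀ i, 0 ≤ u i := fun i =>
    Int.floor_nonneg.mpr (mul_nonneg hN0.le (Int.fract_nonneg _))
  have huN : ∀ i, u i < (N : ℤ) := fun i => by
    apply Int.floor_lt.mpr
    have h1 := Int.fract_lt_one (x.2 i)
    push_cast
    nlinarith
  have hule : ∀ i, (u i : ℝ) ≤ (N : ℝ) * Int.fract (x.2 i) := fun i => Int.floor_le _
  have hult : ∀ i, (N : ℝ) * Int.fract (x.2 i) < (u i : ℝ) + 1 := fun i => Int.lt_floor_add_one _
  have he0 : ∀ i, 0 ≤ e i := fun i => by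
    have : (u i : ℝ) / N ≤ Int.fract (x.2 i) := by
      rw [div_le_iff₀ hN0]
      linarith [hule i]
    simp only [he]
    linarith
  have he1 : ∀ i, e i ≤ 1 / N := fun i => by
    have : Int.fract (x.2 i) ≤ 1 / N + (u i : ℝ) / N := by
      rw [← add_div, le_div_iff₀ hN0]
      linarith [hult i]
    simp only [he]
    linarith
  have hwin' : ∀ i, 0 ≤ e i / δ ∧ e i / δ ≤ 1 / 2 := fun i => by
    have h0 : 0 ≤ e i / δ := div_nonneg (he0 i) hδ0.le
    refine ⟨h0, ?_⟩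
    rw [div_le_iff₀ hδ0]
    have h1 : 1 / (N : ℝ) ≤ 1 / 2 * δ := by
      rw [div_le_iff₀ hN0]
      linarith
    linarith [he1 i]
  obtain ⟨κ, hκ, hcnt⟩ := hcount u (fun i => ⟨hu0 i, huN i⟩)
  set z : Fin t → ℤ := fun i => u i + κ i * (N : ℤ) with hz
  set q' : Fin t → ℤ := fun i => q i - κ i with hq'
  obtain ⟨w, hw⟩ := hwin (fun i => e i / δ) hwin'
  set yh : Fin d → ℝ := x.1 - δ • (w - cy) with hyh
  set m0 : Fin d → ℤ := fun i => ⌊(R : ℝ) * yh i⌋ with hm0
  set τ : Fin d → ℝ := fun i => yh i - (m0 i : ℝ) / R with hτ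
  have hτC : τ ∈ C₁ := by
    apply htiny
    intro i
    have h1 : (m0 i : ℝ) ≤ (R : ℝ) * yh i := Int.floor_le _
    have h2 : (R : ℝ) * yh i < (m0 i : ℝ) + 1 := Int.lt_floor_add_one _
    constructor
    · have : (m0 i : ℝ) / R ≤ yh i := by
        rw [div_le_iff₀ hR0]
        linarith
      simp only [hτ]
      linarith
    · have : yh i ≤ 1 / R + (m0 i : ℝ) / R := by
        rw [← add_div, le_div_iff₀ hR0]
        linarith
      simp only [hτ]
      linarith
  set Sg : G := ∑ i, q' i • v i with hSg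
  let φ : (Fin d → ℤ) → G := fun m => h (m0 - m) - Sg
  have hφinj : Set.InjOn φ (Y₁ : Set (Fin d → ℤ)) := by
    intro m hm m' hm' heq
    apply hinj hm hm'
    have h1 : h (m0 - m) = h (m0 - m') := by
      have : h (m0 - m) - Sg = h (m0 - m') - Sg := heq
      exact sub_left_inj.mp this
    rw [map_sub, map_sub] at h1
    exact sub_right_inj.mp h1
  have hmem : ∀ m ∈ Y₁, φ m ∈ interU (N : ℤ) (fun u => univ \ (A u).image h) v z := by
    intro m hm
    simp only [interU, mem_filter, mem_univ, true_and, mem_sdiff]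
    intro b
    intro hin
    obtain ⟨a, ha, hah⟩ := Finset.mem_image.mp hin
    -- the bounds of the height
    have hb : ∀ i, -(N : ℤ) ≤ (z - qshift (N : ℤ) b) i ∧ (z - qshift (N : ℤ) b) i < 2 * (N : ℤ) := by
      intro i
      have h1 := hu0 i
      have h2 := huN i
      have h3 : z i = u i ∨ z i = u i + (N : ℤ) := by
        rcases hκ i with h4 | h4
        · left
          simp [hz, h4]
        · right
          simp [hz, h4]
      simp only [Pi.sub_apply, qshift]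
      by_cases hbi : b i = true
      · simp only [hbi, if_true]
        omega
      · simp only [hbi, if_false]
        omega
    have hp1 := hA _ hb a ha
    have hp3 := hC τ hτC _ (hY₁ m hm)
    -- the candidate
    apply hno (m0 - m - a) (fun i => q' i + (if b i then 1 else 0))
    · -- the identity in the group
      have h1 : ∑ i, (q' i + (if b i then (1 : ℤ) else 0)) • v i = Sg + qsum v b := by
        rw [hSg, qsum, ← Finset.sum_add_distrib]
        apply Finset.sum_congr rfl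
        intro i _
        by_cases hbi : b i = true
        · simp [hbi, add_smul]
        · simp [hbi]
      rw [h1]
      have h2 : h (m0 - m - a) = h (m0 - m) - h a := map_sub _ _ _
      rw [h2, hah]
      simp only [φ]
      abel
    · -- the convex combination
      have hq12 := hK' hw hp3 (a := (1 / 2 : ℝ)) (b := (1 / 2 : ℝ)) (by norm_num) (by norm_num)
        (by norm_num)
      have hcomb := hK' hp1 hq12 (a := 1 - 2 * δ) (b := 2 * δ) hδ2.le (by positivity) (by ring)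
      convert hcomb using 1
      ext i
      · simp only [Prod.fst_add, Prod.smul_fst, Pi.sub_apply, Pi.add_apply, Pi.smul_apply,
          smul_eq_mul, Int.cast_sub]
        have hyi : x.1 i = yh i + δ * (w i - cy i) := by
          simp only [hyh, Pi.sub_apply, Pi.smul_apply, smul_eq_mul]
          ring
        have hτi : τ i = yh i - (m0 i : ℝ) / R := rfl
        rw [hyi, mul_inv_cancel_left₀ hδ2.ne', hτi]
        have hδne : δ ≠ 0 := hδ0.ne'
        field_simp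
        ring
      · simp only [Prod.snd_add, Prod.smul_snd, Pi.sub_apply, Pi.add_apply, Pi.smul_apply,
          smul_eq_mul, Int.cast_add, qshift]
        have hxi : x.2 i = (q' i : ℝ) + (z i : ℝ) / N + e i := by
          have hN0' : (N : ℝ) ≠ 0 := hN0.ne'
          have hzi : (z i : ℝ) / N = (u i : ℝ) / N + (κ i : ℝ) := by
            simp only [hz]
            push_cast
            field_simp
          have hqi : (q' i : ℝ) = (q i : ℝ) - (κ i : ℝ) := by
            simp only [hq']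
            push_cast
            ring
          rw [hzi, hqi]
          simp only [he, hq]
          have := Int.floor_add_fract (x.2 i)
          linarith
        rw [hxi, mul_inv_cancel_left₀ hδ2.ne']
        have hδne : δ ≠ 0 := hδ0.ne'
        by_cases hbi : b i = true
        · simp only [hbi, if_true, Pi.zero_apply]
          push_cast
          field_simp
          ring
        · simp only [hbi, if_false, Pi.zero_apply]
          push_cast
          field_simp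
          ring
  have hcard : Y₁.card ≤ (interU (N : ℤ) (fun u => univ \ (A u).image h) v z).card :=
    Finset.card_le_card_of_injOn φ hmem hφinj
  exact absurd hcnt (not_lt.mpr hcard)

/-- The abstract covering step with leaf weights. -/
theorem abstract_cover3 {d t : ℕ} {G : Type} [AddCommGroup G] [Fintype G]
    (K' : Set ((Fin d → ℝ) × (Fin t → ℝ))) (hK' : Convex ℝ K') (δ : ℝ) (hδ0 : 0 < δ) (hδ1 : δ ≤ 1 / 4)
    (N : ℕ) (hN0 : 0 < N) (hN : 2 ≤ δ * N) (cy : Fin d → ℝ) (hc : (cy, (0 : Fin t → ℝ)) ∈ K')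
    (hwin : ∀ x : Fin t → ℝ, (∀ i, 0 ≤ x i ∧ x i ≤ 1 / 2) → ∃ y, (y, x) ∈ K')
    (C₁ : Set (Fin d → ℝ)) (hsym : ∀ a ∈ C₁, -a ∈ C₁)
    (hC : ∀ a ∈ C₁, ∀ a' ∈ C₁, (cy + δ⁻¹ • (a + a'), (0 : Fin t → ℝ)) ∈ K')
    (R : ℕ) (hR : 0 < R) (htiny : ∀ τ : Fin d → ℝ, (∀ i, 0 ≤ τ i ∧ τ i ≤ 1 / (R : ℝ)) → τ ∈ C₁)
    (h : (Fin d → ℤ) →+ G) (hsurj : Function.Surjective h) (A : (Fin t → ℤ) → Finset (Fin d → ℤ))
    (hA : ∀ u : Fin t → ℤ, (∀ i, -(N : ℤ) ≤ u i ∧ u i < 2 * (N : ℤ)) → ∀ a ∈ A u,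
      ((1 - 2 * δ)⁻¹ • ((fun i => (a i : ℝ) / R) - (2 * δ) • cy),
        (1 - 2 * δ)⁻¹ • (fun i => (u i : ℝ) / N)) ∈ K')
    (Y₁ : Finset (Fin d → ℤ)) (hY₁ : ∀ m ∈ Y₁, (fun i => (m i : ℝ) / R) ∈ C₁)
    (hinj : Set.InjOn h Y₁) (σ : (Fin t → ℤ) → ℝ) (hσ : ∀ u, 0 < σ u)
    (hvoid : ∀ u : Fin t → ℤ, (∀ i, -(N : ℤ) ≤ u i ∧ u i < 2 * (N : ℤ)) →
      (((univ \ (A u).image h : Finset G)).card : ℝ) ≤ σ u * Fintype.card G)
    (hcount : ∀ u : Fin t → ℤ, (∀ i, 0 ≤ u i ∧ u i < (N : ℤ)) →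
      ∃ κ : Fin t → ℤ, (∀ i, κ i = 0 ∨ κ i = 1) ∧
        ((3 * (N : ℝ)) ^ t) ^ (2 ^ t - 1) *
          (∏ q : Fin t → Bool, σ ((fun i => u i + κ i * (N : ℤ)) - qshift (N : ℤ) q)) *
          Fintype.card G < Y₁.card) :
    ∃ B : Matrix (Fin d ⊕ Fin t) (Fin d ⊕ Fin t) ℤ, |B.det| = (Fintype.card G : ℤ) ∧
      ∀ x : (Fin d → ℝ) × (Fin t → ℝ), ∃ k : Fin d ⊕ Fin t → ℤ,
        (x.1 - (fun i => ((B.mulVec k (Sum.inl i) : ℤ) : ℝ) / R),
          x.2 - (fun i => ((B.mulVec k (Sum.inr i) : ℤ) : ℝ))) ∈ K' := by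
  obtain ⟨v, hv⟩ := layering_leaf3 (G := G) N hN0 (fun u => univ \ (A u).image h) σ hσ hvoid
  have hcount' : ∀ u : Fin t → ℤ, (∀ i, 0 ≤ u i ∧ u i < (N : ℤ)) →
      ∃ κ : Fin t → ℤ, (∀ i, κ i = 0 ∨ κ i = 1) ∧
        (interU (N : ℤ) (fun u => univ \ (A u).image h) v
          (fun i => u i + κ i * (N : ℤ))).card < Y₁.card := by
    intro u hu
    obtain ⟨κ, hκ, hc⟩ := hcount u hu
    refine ⟨κ, hκ, ?_⟩
    have hz : ∀ i, 0 ≤ u i + κ i * (N : ℤ) ∧ u i + κ i * (N : ℤ) < 2 * (N : ℤ) := by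
      intro i
      have h1 := hu i
      rcases hκ i with h4 | h4
      · simp only [h4, zero_mul, add_zero]
        omega
      · simp only [h4, one_mul]
        omega
    have := (hv _ hz).trans_lt hc
    exact_mod_cast this
  have hcov := erosion_cover3 K' hK' δ hδ0 hδ1 N hN cy hc hwin C₁ hsym hC R hR htiny h v A hA Y₁ hY₁ hinj
    hcount'
  -- the homomorphism
  let Φ : (Fin d ⊕ Fin t → ℤ) →+ G :=
    { toFun := fun w => h (fun i => w (Sum.inl i)) - ∑ i, w (Sum.inr i) • v i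
      map_zero' := by
        show h 0 - ∑ i, (0 : ℤ) • v i = 0
        simp
      map_add' := by
        intro x y
        show h ((fun i => x (Sum.inl i)) + (fun i => y (Sum.inl i))) -
            ∑ i, (x (Sum.inr i) + y (Sum.inr i)) • v i = _
        simp only [map_add, add_smul, Finset.sum_add_distrib]
        abel }
  have hΦ : Function.Surjective Φ := by
    intro g
    obtain ⟨m, hm⟩ := hsurj g
    refine ⟨Sum.elim m 0, ?_⟩
    show h (fun i => Sum.elim m 0 (Sum.inl i)) - ∑ i, Sum.elim m (0 : Fin t → ℤ) (Sum.inr i) • v i = g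
    simp [hm]
  obtain ⟨B, hB, hdet⟩ := matrix_of_hom Φ hΦ
  refine ⟨B, hdet, fun x => ?_⟩
  obtain ⟨m, z, hmz, hmem⟩ := hcov x
  have hΦ0 : Φ (Sum.elim m z) = 0 := by
    show h (fun i => Sum.elim m z (Sum.inl i)) - ∑ i, Sum.elim m z (Sum.inr i) • v i = 0
    simp [hmz]
  obtain ⟨k, hk⟩ := (hB _).mp hΦ0
  refine ⟨k, ?_⟩
  rw [← hk]
  simpa using hmem

end Vale.Agent.Lib.P230.Star
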