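import Vale.Agent.Lib.P230.Star.Defs

/-!
# P230 star route: the linear rounding rule.

Flip rule: `q i = 1` with probability `1/10 + (4/5) y i`. Mean cost at `y` is exactly
`mc y = 1/10 + (3/5) y (1 - y)`, and the entropy of the rule is at least `3/40 + (49/20) mc y`
(pointwise, in the form of a Hölder bound of order `64/63`, polynomial in `y` on 16 cells).
So the entropy of the vertex measure at a shift `j` is controlled by its mean cost alone. The mean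
cost moves by at most `(3/5)/N` per step of `j` and its mean over `j` is `1/5 - 1/(10 N²)`, so some `j`
has mean cost between `1/5 - 31/100000` and `1/5` per coordinate. This gives `leaf_count_lin`.
-/

set_option autoImplicit false

open Finset

namespace Vale.Agent.Lib.P230.Star

/-- number of good leaves guaranteed by `leaf_count_lin` -/
noncomputable def leafL (t : ℕ) : ℕ := ⌈(1 / 10 ^ 200 : ℝ) * (1757 / 1000 : ℝ) ^ t⌉₊

namespace LinAux

/-- the value of a bit -/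
def bitv (b : Bool) : ℝ := if b then 1 else 0

/-- the weight of a bit -/
noncomputable def wt (y : ℝ) (b : Bool) : ℝ := if b then 1 / 10 + 4 / 5 * y else 9 / 10 - 4 / 5 * y

/-- the mean cost at `y` -/
noncomputable def mc (y : ℝ) : ℝ := 1 / 10 + 3 / 5 * y * (1 - y)

lemma wt_pos {y : ℝ} (h0 : 0 ≤ y) (h1 : y ≤ 1) (b : Bool) : 0 < wt y b := by
  unfold wt
  split_ifs <;> linarith

lemma wt_sum (y : ℝ) : ∑ b : Bool, wt y b = 1 := by
  rw [Fintype.sum_bool]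
  simp only [wt, if_true, Bool.false_eq_true, if_false]
  ring

lemma cost_eq (y : ℝ) : ∑ b : Bool, wt y b * (y - bitv b) ^ 2 = mc y := by
  rw [Fintype.sum_bool]
  simp only [wt, bitv, mc, if_true, Bool.false_eq_true, if_false]
  ring

/-- A tangent bound for the `64/63` power. -/
lemma dom_pow {x ζ ℓ : ℝ} (hx : 0 < x) (hζ : 0 < ζ) (_hℓ : 0 < ℓ) (h : ζ ≤ ℓ ^ 63) :
    x ^ 64 ≤ (x * ℓ * (1 + (x - ζ) / (63 * ζ))) ^ 63 := by
  set u : ℝ := (x - ζ) / (63 * ζ) with hu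
  have hu1 : -(1 / 63) ≤ u := by
    rw [hu, le_div_iff₀ (by positivity)]
    nlinarith
  have hb := one_add_mul_le_pow (show (-2 : ℝ) ≤ u by linarith) 63
  have e : 1 + ((63 : ℕ) : ℝ) * u = x / ζ := by
    rw [hu]
    push_cast
    field_simp
    ring
  rw [e] at hb
  have hu0 : 0 < 1 + u := by linarith
  obtain ⟨v, hv⟩ : ∃ v, v = 1 + u := ⟨_, rfl⟩
  rw [← hv] at hb hu0 ⊢
  have h1 : x ≤ ζ * v ^ 63 := by
    rwa [div_le_iff₀ hζ, mul_comm] at hb
  have h2 : x ≤ ℓ ^ 63 * v ^ 63 :=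
    h1.trans (mul_le_mul_of_nonneg_right h (by positivity))
  rw [mul_pow, mul_pow]
  calc x ^ 64 = x ^ 63 * x := by rw [pow_succ]
    _ ≤ x ^ 63 * (ℓ ^ 63 * v ^ 63) := mul_le_mul_of_nonneg_left h2 (by positivity)
    _ = x ^ 63 * ℓ ^ 63 * v ^ 63 := by rw [mul_assoc]

lemma dom_pos {x ζ ℓ : ℝ} (hx : 0 < x) (hζ : 0 < ζ) (hℓ : 0 < ℓ) :
    0 < x * ℓ * (1 + (x - ζ) / (63 * ζ)) := by
  have hu1 : -(1 / 63) ≤ (x - ζ) / (63 * ζ) := by
    rw [le_div_iff₀ (by positivity)]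
    nlinarith
  have : 0 < 1 + (x - ζ) / (63 * ζ) := by linarith
  positivity

/-- Dominating weights at `y`. -/
def DomAt (y : ℝ) : Prop :=
  ∃ d₀ d₁ : ℝ, 0 < d₀ ∧ 0 < d₁ ∧ (9 / 10 - 4 / 5 * y) ^ 64 ≤ d₀ ^ 63 ∧ (1 / 10 + 4 / 5 * y) ^ 64 ≤ d₁ ^ 63 ∧
    63 * (d₀ + d₁ - 1) + 3 / 40 + 49 / 20 * (1 / 10 + 3 / 5 * y * (1 - y)) ≤ 0

lemma cell_of {y ζ₁ ℓ₁ ζ₀ ℓ₀ : ℝ} (h0 : 0 ≤ y) (h1 : y ≤ 1) (hζ₁ : 0 < ζ₁) (hℓ₁ : 0 < ℓ₁)
    (hζ₀ : 0 < ζ₀) (hℓ₀ : 0 < ℓ₀) (hz₁ : ζ₁ ≤ ℓ₁ ^ 63) (hz₀ : ζ₀ ≤ ℓ₀ ^ 63)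
    (hpoly : 63 * ((9 / 10 - 4 / 5 * y) * ℓ₀ * (1 + ((9 / 10 - 4 / 5 * y) - ζ₀) / (63 * ζ₀)) +
      (1 / 10 + 4 / 5 * y) * ℓ₁ * (1 + ((1 / 10 + 4 / 5 * y) - ζ₁) / (63 * ζ₁)) - 1) + 3 / 40 +
      49 / 20 * (1 / 10 + 3 / 5 * y * (1 - y)) ≤ 0) : DomAt y := by
  have hx₀ : 0 < 9 / 10 - 4 / 5 * y := by linarith
  have hx₁ : 0 < 1 / 10 + 4 / 5 * y := by linarith
  exact ⟨_, _, dom_pos hx₀ hζ₀ hℓ₀, dom_pos hx₁ hζ₁ hℓ₁, dom_pow hx₀ hζ₀ hℓ₀ hz₀, dom_pow hx₁ hζ₁ hℓ₁ hz₁, hpoly⟩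

lemma cell_0 {y : ℝ} (h0 : (0) ≤ y) (h1 : y ≤ (13 / 1000)) : DomAt y := by
  refine cell_of (ζ₁ := (21 / 200)) (ℓ₁ := (9648579 / 10000000)) (ζ₀ := (179 / 200)) (ℓ₀ := (1247801 / 1250000))
    (by linarith) (by linarith) (by norm_num) (by norm_num) (by norm_num) (by norm_num) (by norm_num) (by norm_num) ?_
  have e : 63 * ((9 / 10 - 4 / 5 * y) * (1247801 / 1250000) * (1 + ((9 / 10 - 4 / 5 * y) - (179 / 200)) / (63 * (179 / 200))) +
      (1 / 10 + 4 / 5 * y) * (9648579 / 10000000) * (1 + ((1 / 10 + 4 / 5 * y) - (21 / 200)) / (63 * (21 / 200))) - 1) + 3 / 40 +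
      49 / 20 * (1 / 10 + 3 / 5 * y * (1 - y)) =
      (2006704737 / 391562500) * y ^ 2 + (-2518845487 / 7831250000) * y + (-44941577 / 62650000000) := by
    ring
  rw [e]
  have hm : 0 ≤ (y - (0)) * ((13 / 1000) - y) := mul_nonneg (sub_nonneg.2 h0) (sub_nonneg.2 h1)
  nlinarith [hm]

lemma cell_1 {y : ℝ} (h0 : (13 / 1000) ≤ y) (h1 : y ≤ (7 / 250)) : DomAt y := by
  refine cell_of (ζ₁ := (29 / 250)) (ℓ₁ := (9663849 / 10000000)) (ζ₀ := (221 / 250)) (ℓ₀ := (311889 / 312500))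
    (by linarith) (by linarith) (by norm_num) (by norm_num) (by norm_num) (by norm_num) (by norm_num) (by norm_num) ?_
  have e : 63 * ((9 / 10 - 4 / 5 * y) * (311889 / 312500) * (1 + ((9 / 10 - 4 / 5 * y) - (221 / 250)) / (63 * (221 / 250))) +
      (1 / 10 + 4 / 5 * y) * (9663849 / 10000000) * (1 + ((1 / 10 + 4 / 5 * y) - (29 / 250)) / (63 * (29 / 250))) - 1) + 3 / 40 +
      49 / 20 * (1 / 10 + 3 / 5 * y * (1 - y)) =
      (918158373 / 200281250) * y ^ 2 + (-1968567837 / 5007031250) * y + (187992923 / 640900000000) := by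
    ring
  rw [e]
  have hm : 0 ≤ (y - (13 / 1000)) * ((7 / 250) - y) := mul_nonneg (sub_nonneg.2 h0) (sub_nonneg.2 h1)
  nlinarith [hm]

lemma cell_2 {y : ℝ} (h0 : (7 / 250) ≤ y) (h1 : y ≤ (11 / 250)) : DomAt y := by
  refine cell_of (ζ₁ := (129 / 1000)) (ℓ₁ := (9680157 / 10000000)) (ζ₀ := (871 / 1000)) (ℓ₀ := (4989051 / 5000000))
    (by linarith) (by linarith) (by norm_num) (by norm_num) (by norm_num) (by norm_num) (by norm_num) (by norm_num) ?_
  have e : 63 * ((9 / 10 - 4 / 5 * y) * (4989051 / 5000000) * (1 + ((9 / 10 - 4 / 5 * y) - (871 / 1000)) / (63 * (871 / 1000))) +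
      (1 / 10 + 4 / 5 * y) * (9680157 / 10000000) * (1 + ((1 / 10 + 4 / 5 * y) - (129 / 1000)) / (63 * (129 / 1000))) - 1) + 3 / 40 +
      49 / 20 * (1 / 10 + 3 / 5 * y * (1 - y)) =
      (1903425633 / 468162500) * y ^ 2 + (-21386568327 / 46816250000) * y + (185436919 / 74906000000) := by
    ring
  rw [e]
  have hm : 0 ≤ (y - (7 / 250)) * ((11 / 250) - y) := mul_nonneg (sub_nonneg.2 h0) (sub_nonneg.2 h1)
  nlinarith [hm]

lemma cell_3 {y : ℝ} (h0 : (11 / 250) ≤ y) (h1 : y ≤ (31 / 500)) : DomAt y := by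
  refine cell_of (ζ₁ := (71 / 500)) (ℓ₁ := (9694921 / 10000000)) (ζ₀ := (429 / 500)) (ℓ₀ := (249393 / 250000))
    (by linarith) (by linarith) (by norm_num) (by norm_num) (by norm_num) (by norm_num) (by norm_num) (by norm_num) ?_
  have e : 63 * ((9 / 10 - 4 / 5 * y) * (249393 / 250000) * (1 + ((9 / 10 - 4 / 5 * y) - (429 / 500)) / (63 * (429 / 500))) +
      (1 / 10 + 4 / 5 * y) * (9694921 / 10000000) * (1 + ((1 / 10 + 4 / 5 * y) - (71 / 500)) / (63 * (71 / 500))) - 1) + 3 / 40 +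
      49 / 20 * (1 / 10 + 3 / 5 * y * (1 - y)) =
      (2312124611 / 634562500) * y ^ 2 + (-32021565007 / 63456250000) * y + (1372301759 / 253825000000) := by
    ring
  rw [e]
  have hm : 0 ≤ (y - (11 / 250)) * ((31 / 500) - y) := mul_nonneg (sub_nonneg.2 h0) (sub_nonneg.2 h1)
  nlinarith [hm]

lemma cell_4 {y : ℝ} (h0 : (31 / 500) ≤ y) (h1 : y ≤ (41 / 500)) : DomAt y := by
  refine cell_of (ζ₁ := (157 / 1000)) (ℓ₁ := (9710387 / 10000000)) (ζ₀ := (843 / 1000)) (ℓ₀ := (155827 / 156250))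
    (by linarith) (by linarith) (by norm_num) (by norm_num) (by norm_num) (by norm_num) (by norm_num) (by norm_num) ?_
  have e : 63 * ((9 / 10 - 4 / 5 * y) * (155827 / 156250) * (1 + ((9 / 10 - 4 / 5 * y) - (843 / 1000)) / (63 * (843 / 1000))) +
      (1 / 10 + 4 / 5 * y) * (9710387 / 10000000) * (1 + ((1 / 10 + 4 / 5 * y) - (157 / 1000)) / (63 * (157 / 1000))) - 1) + 3 / 40 +
      49 / 20 * (1 / 10 + 3 / 5 * y * (1 - y)) =
      (26846675623 / 8271937500) * y ^ 2 + (-150596256807 / 275731250000) * y + (20912885303 / 2205850000000) := by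
    ring
  rw [e]
  have hm : 0 ≤ (y - (31 / 500)) * ((41 / 500) - y) := mul_nonneg (sub_nonneg.2 h0) (sub_nonneg.2 h1)
  nlinarith [hm]

lemma cell_5 {y : ℝ} (h0 : (41 / 500) ≤ y) (h1 : y ≤ (13 / 125)) : DomAt y := by
  refine cell_of (ζ₁ := (87 / 500)) (ℓ₁ := (4863123 / 5000000)) (ζ₀ := (413 / 500)) (ℓ₀ := (1246213 / 1250000))
    (by linarith) (by linarith) (by norm_num) (by norm_num) (by norm_num) (by norm_num) (by norm_num) (by norm_num) ?_
  have e : 63 * ((9 / 10 - 4 / 5 * y) * (1246213 / 1250000) * (1 + ((9 / 10 - 4 / 5 * y) - (413 / 500)) / (63 * (413 / 500))) +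
      (1 / 10 + 4 / 5 * y) * (4863123 / 5000000) * (1 + ((1 / 10 + 4 / 5 * y) - (87 / 500)) / (63 * (87 / 500))) - 1) + 3 / 40 +
      49 / 20 * (1 / 10 + 3 / 5 * y * (1 - y)) =
      (2155815689 / 748562500) * y ^ 2 + (-21754873423 / 37428125000) * y + (2212366021 / 149712500000) := by
    ring
  rw [e]
  have hm : 0 ≤ (y - (41 / 500)) * ((13 / 125) - y) := mul_nonneg (sub_nonneg.2 h0) (sub_nonneg.2 h1)
  nlinarith [hm]

lemma cell_6 {y : ℝ} (h0 : (13 / 125) ≤ y) (h1 : y ≤ (16 / 125)) : DomAt y := by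
  refine cell_of (ζ₁ := (193 / 1000)) (ℓ₁ := (9742259 / 10000000)) (ζ₀ := (807 / 1000)) (ℓ₀ := (4983011 / 5000000))
    (by linarith) (by linarith) (by norm_num) (by norm_num) (by norm_num) (by norm_num) (by norm_num) (by norm_num) ?_
  have e : 63 * ((9 / 10 - 4 / 5 * y) * (4983011 / 5000000) * (1 + ((9 / 10 - 4 / 5 * y) - (807 / 1000)) / (63 * (807 / 1000))) +
      (1 / 10 + 4 / 5 * y) * (9742259 / 10000000) * (1 + ((1 / 10 + 4 / 5 * y) - (193 / 1000)) / (63 * (193 / 1000))) - 1) + 3 / 40 +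
      49 / 20 * (1 / 10 + 3 / 5 * y * (1 - y)) =
      (24832157911 / 9734437500) * y ^ 2 + (-198108683001 / 324481250000) * y + (55521095789 / 2595850000000) := by
    ring
  rw [e]
  have hm : 0 ≤ (y - (13 / 125)) * ((16 / 125) - y) := mul_nonneg (sub_nonneg.2 h0) (sub_nonneg.2 h1)
  nlinarith [hm]

lemma cell_7 {y : ℝ} (h0 : (16 / 125) ≤ y) (h1 : y ≤ (31 / 200)) : DomAt y := by
  refine cell_of (ζ₁ := (213 / 1000)) (ℓ₁ := (4878759 / 5000000)) (ζ₀ := (787 / 1000)) (ℓ₀ := (9962053 / 10000000))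
    (by linarith) (by linarith) (by norm_num) (by norm_num) (by norm_num) (by norm_num) (by norm_num) (by norm_num) ?_
  have e : 63 * ((9 / 10 - 4 / 5 * y) * (9962053 / 10000000) * (1 + ((9 / 10 - 4 / 5 * y) - (787 / 1000)) / (63 * (787 / 1000))) +
      (1 / 10 + 4 / 5 * y) * (4878759 / 5000000) * (1 + ((1 / 10 + 4 / 5 * y) - (213 / 1000)) / (63 * (213 / 1000))) - 1) + 3 / 40 +
      49 / 20 * (1 / 10 + 3 / 5 * y * (1 - y)) =
      (1586882513 / 698462500) * y ^ 2 + (-44305179009 / 69846250000) * y + (16230116463 / 558770000000) := by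
    ring
  rw [e]
  have hm : 0 ≤ (y - (16 / 125)) * ((31 / 200) - y) := mul_nonneg (sub_nonneg.2 h0) (sub_nonneg.2 h1)
  nlinarith [hm]

lemma cell_8 {y : ℝ} (h0 : (31 / 200) ≤ y) (h1 : y ≤ (23 / 125)) : DomAt y := by
  refine cell_of (ζ₁ := (47 / 200)) (ℓ₁ := (4886377 / 5000000)) (ζ₀ := (153 / 200)) (ℓ₀ := (995757 / 1000000))
    (by linarith) (by linarith) (by norm_num) (by norm_num) (by norm_num) (by norm_num) (by norm_num) (by norm_num) ?_
  have e : 63 * ((9 / 10 - 4 / 5 * y) * (995757 / 1000000) * (1 + ((9 / 10 - 4 / 5 * y) - (153 / 200)) / (63 * (153 / 200))) +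
      (1 / 10 + 4 / 5 * y) * (4886377 / 5000000) * (1 + ((1 / 10 + 4 / 5 * y) - (47 / 200)) / (63 * (47 / 200))) - 1) + 3 / 40 +
      49 / 20 * (1 / 10 + 3 / 5 * y * (1 - y)) =
      (1516527661 / 749062500) * y ^ 2 + (-818568611 / 1248437500) * y + (382173769 / 9987500000) := by
    ring
  rw [e]
  have hm : 0 ≤ (y - (31 / 200)) * ((23 / 125) - y) := mul_nonneg (sub_nonneg.2 h0) (sub_nonneg.2 h1)
  nlinarith [hm]

lemma cell_9 {y : ℝ} (h0 : (23 / 125) ≤ y) (h1 : y ≤ (217 / 1000)) : DomAt y := by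
  refine cell_of (ζ₁ := (13 / 50)) (ℓ₁ := (9788449 / 10000000)) (ζ₀ := (37 / 50)) (ℓ₀ := (31101 / 31250))
    (by linarith) (by linarith) (by norm_num) (by norm_num) (by norm_num) (by norm_num) (by norm_num) (by norm_num) ?_
  have e : 63 * ((9 / 10 - 4 / 5 * y) * (31101 / 31250) * (1 + ((9 / 10 - 4 / 5 * y) - (37 / 50)) / (63 * (37 / 50))) +
      (1 / 10 + 4 / 5 * y) * (9788449 / 10000000) * (1 + ((1 / 10 + 4 / 5 * y) - (13 / 50)) / (63 * (13 / 50))) - 1) + 3 / 40 +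
      49 / 20 * (1 / 10 + 3 / 5 * y * (1 - y)) =
      (135296699 / 75156250) * y ^ 2 + (-508884279 / 751562500) * y + (2395737303 / 48100000000) := by
    ring
  rw [e]
  have hm : 0 ≤ (y - (23 / 125)) * ((217 / 1000) - y) := mul_nonneg (sub_nonneg.2 h0) (sub_nonneg.2 h1)
  nlinarith [hm]

lemma cell_10 {y : ℝ} (h0 : (217 / 1000) ≤ y) (h1 : y ≤ (253 / 1000)) : DomAt y := by
  refine cell_of (ζ₁ := (36 / 125)) (ℓ₁ := (9804353 / 10000000)) (ζ₀ := (89 / 125)) (ℓ₀ := (9946229 / 10000000))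
    (by linarith) (by linarith) (by norm_num) (by norm_num) (by norm_num) (by norm_num) (by norm_num) (by norm_num) ?_
  have e : 63 * ((9 / 10 - 4 / 5 * y) * (9946229 / 10000000) * (1 + ((9 / 10 - 4 / 5 * y) - (89 / 125)) / (63 * (89 / 125))) +
      (1 / 10 + 4 / 5 * y) * (9804353 / 10000000) * (1 + ((1 / 10 + 4 / 5 * y) - (36 / 125)) / (63 * (36 / 125))) - 1) + 3 / 40 +
      49 / 20 * (1 / 10 + 3 / 5 * y * (1 - y)) =
      (641916661 / 400500000) * y ^ 2 + (-28059653123 / 40050000000) * y + (41153980069 / 640800000000) := by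
    ring
  rw [e]
  have hm : 0 ≤ (y - (217 / 1000)) * ((253 / 1000) - y) := mul_nonneg (sub_nonneg.2 h0) (sub_nonneg.2 h1)
  nlinarith [hm]

lemma cell_11 {y : ℝ} (h0 : (253 / 1000) ≤ y) (h1 : y ≤ (293 / 1000)) : DomAt y := by
  refine cell_of (ζ₁ := (159 / 500)) (ℓ₁ := (4909893 / 5000000)) (ζ₀ := (341 / 500)) (ℓ₀ := (1987887 / 2000000))
    (by linarith) (by linarith) (by norm_num) (by norm_num) (by norm_num) (by norm_num) (by norm_num) (by norm_num) ?_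
  have e : 63 * ((9 / 10 - 4 / 5 * y) * (1987887 / 2000000) * (1 + ((9 / 10 - 4 / 5 * y) - (341 / 500)) / (63 * (341 / 500))) +
      (1 / 10 + 4 / 5 * y) * (4909893 / 5000000) * (1 + ((1 / 10 + 4 / 5 * y) - (159 / 500)) / (63 * (159 / 500))) - 1) + 3 / 40 +
      49 / 20 * (1 / 10 + 3 / 5 * y * (1 - y)) =
      (147771629 / 102687500) * y ^ 2 + (-7475966167 / 10268750000) * y + (419399013 / 5134375000) := by
    ring
  rw [e]
  have hm : 0 ≤ (y - (253 / 1000)) * ((293 / 1000) - y) := mul_nonneg (sub_nonneg.2 h0) (sub_nonneg.2 h1)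
  nlinarith [hm]

lemma cell_12 {y : ℝ} (h0 : (293 / 1000) ≤ y) (h1 : y ≤ (337 / 1000)) : DomAt y := by
  refine cell_of (ζ₁ := (44 / 125)) (ℓ₁ := (614727 / 625000)) (ζ₀ := (81 / 125)) (ℓ₀ := (993137 / 1000000))
    (by linarith) (by linarith) (by norm_num) (by norm_num) (by norm_num) (by norm_num) (by norm_num) (by norm_num) ?_
  have e : 63 * ((9 / 10 - 4 / 5 * y) * (993137 / 1000000) * (1 + ((9 / 10 - 4 / 5 * y) - (81 / 125)) / (63 * (81 / 125))) +
      (1 / 10 + 4 / 5 * y) * (614727 / 625000) * (1 + ((1 / 10 + 4 / 5 * y) - (44 / 125)) / (63 * (44 / 125))) - 1) + 3 / 40 +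
      49 / 20 * (1 / 10 + 3 / 5 * y * (1 - y)) =
      (18086921 / 13921875) * y ^ 2 + (-473193647 / 618750000) * y + (114949809 / 1100000000) := by
    ring
  rw [e]
  have hm : 0 ≤ (y - (293 / 1000)) * ((337 / 1000) - y) := mul_nonneg (sub_nonneg.2 h0) (sub_nonneg.2 h1)
  nlinarith [hm]

lemma cell_13 {y : ℝ} (h0 : (337 / 1000) ≤ y) (h1 : y ≤ (193 / 500)) : DomAt y := by
  refine cell_of (ζ₁ := (389 / 1000)) (ℓ₁ := (9851249 / 10000000)) (ζ₀ := (611 / 1000)) (ℓ₀ := (4961053 / 5000000))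
    (by linarith) (by linarith) (by norm_num) (by norm_num) (by norm_num) (by norm_num) (by norm_num) (by norm_num) ?_
  have e : 63 * ((9 / 10 - 4 / 5 * y) * (4961053 / 5000000) * (1 + ((9 / 10 - 4 / 5 * y) - (611 / 1000)) / (63 * (611 / 1000))) +
      (1 / 10 + 4 / 5 * y) * (9851249 / 10000000) * (1 + ((1 / 10 + 4 / 5 * y) - (389 / 1000)) / (63 * (389 / 1000))) - 1) + 3 / 40 +
      49 / 20 * (1 / 10 + 3 / 5 * y * (1 - y)) =
      (17678491367 / 14854937500) * y ^ 2 + (-1210220032193 / 1485493750000) * y + (1590305618597 / 11883950000000) := by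
    ring
  rw [e]
  have hm : 0 ≤ (y - (337 / 1000)) * ((193 / 500) - y) := mul_nonneg (sub_nonneg.2 h0) (sub_nonneg.2 h1)
  nlinarith [hm]

lemma cell_14 {y : ℝ} (h0 : (193 / 500) ≤ y) (h1 : y ≤ (11 / 25)) : DomAt y := by
  refine cell_of (ζ₁ := (43 / 100)) (ℓ₁ := (986693 / 1000000)) (ζ₀ := (57 / 100)) (ℓ₀ := (2477793 / 2500000))
    (by linarith) (by linarith) (by norm_num) (by norm_num) (by norm_num) (by norm_num) (by norm_num) (by norm_num) ?_
  have e : 63 * ((9 / 10 - 4 / 5 * y) * (2477793 / 2500000) * (1 + ((9 / 10 - 4 / 5 * y) - (57 / 100)) / (63 * (57 / 100))) +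
      (1 / 10 + 4 / 5 * y) * (986693 / 1000000) * (1 + ((1 / 10 + 4 / 5 * y) - (43 / 100)) / (63 * (43 / 100))) - 1) + 3 / 40 +
      49 / 20 * (1 / 10 + 3 / 5 * y * (1 - y)) =
      (283754229 / 255312500) * y ^ 2 + (-2262512407 / 2553125000) * y + (1768931779 / 10212500000) := by
    ring
  rw [e]
  have hm : 0 ≤ (y - (193 / 500)) * ((11 / 25) - y) := mul_nonneg (sub_nonneg.2 h0) (sub_nonneg.2 h1)
  nlinarith [hm]

lemma cell_15 {y : ℝ} (h0 : (11 / 25) ≤ y) (h1 : y ≤ (1 / 2)) : DomAt y := by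
  refine cell_of (ζ₁ := (19 / 40)) (ℓ₁ := (9882531 / 10000000)) (ζ₀ := (21 / 40)) (ℓ₀ := (9898243 / 10000000))
    (by linarith) (by linarith) (by norm_num) (by norm_num) (by norm_num) (by norm_num) (by norm_num) (by norm_num) ?_
  have e : 63 * ((9 / 10 - 4 / 5 * y) * (9898243 / 10000000) * (1 + ((9 / 10 - 4 / 5 * y) - (21 / 40)) / (63 * (21 / 40))) +
      (1 / 10 + 4 / 5 * y) * (9882531 / 10000000) * (1 + ((1 / 10 + 4 / 5 * y) - (19 / 40)) / (63 * (19 / 40))) - 1) + 3 / 40 +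
      49 / 20 * (1 / 10 + 3 / 5 * y * (1 - y)) =
      (665945947 / 623437500) * y ^ 2 + (-205732903 / 207812500) * y + (755865533 / 3325000000) := by
    ring
  rw [e]
  have hm : 0 ≤ (y - (11 / 25)) * ((1 / 2) - y) := mul_nonneg (sub_nonneg.2 h0) (sub_nonneg.2 h1)
  nlinarith [hm]

lemma dom_half {y : ℝ} (h0 : 0 ≤ y) (h1 : y ≤ 1 / 2) : DomAt y := by
  by_cases c0 : y ≤ (13 / 1000)
  · exact cell_0 (by linarith) c0
  by_cases c1 : y ≤ (7 / 250)
  · exact cell_1 (by linarith [not_le.1 c0]) c1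
  by_cases c2 : y ≤ (11 / 250)
  · exact cell_2 (by linarith [not_le.1 c1]) c2
  by_cases c3 : y ≤ (31 / 500)
  · exact cell_3 (by linarith [not_le.1 c2]) c3
  by_cases c4 : y ≤ (41 / 500)
  · exact cell_4 (by linarith [not_le.1 c3]) c4
  by_cases c5 : y ≤ (13 / 125)
  · exact cell_5 (by linarith [not_le.1 c4]) c5
  by_cases c6 : y ≤ (16 / 125)
  · exact cell_6 (by linarith [not_le.1 c5]) c6
  by_cases c7 : y ≤ (31 / 200)
  · exact cell_7 (by linarith [not_le.1 c6]) c7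
  by_cases c8 : y ≤ (23 / 125)
  · exact cell_8 (by linarith [not_le.1 c7]) c8
  by_cases c9 : y ≤ (217 / 1000)
  · exact cell_9 (by linarith [not_le.1 c8]) c9
  by_cases c10 : y ≤ (253 / 1000)
  · exact cell_10 (by linarith [not_le.1 c9]) c10
  by_cases c11 : y ≤ (293 / 1000)
  · exact cell_11 (by linarith [not_le.1 c10]) c11
  by_cases c12 : y ≤ (337 / 1000)
  · exact cell_12 (by linarith [not_le.1 c11]) c12
  by_cases c13 : y ≤ (193 / 500)
  · exact cell_13 (by linarith [not_le.1 c12]) c13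
  by_cases c14 : y ≤ (11 / 25)
  · exact cell_14 (by linarith [not_le.1 c13]) c14
  exact cell_15 (by linarith [not_le.1 c14]) (by linarith)

lemma dom_all {y : ℝ} (h0 : 0 ≤ y) (h1 : y ≤ 1) : DomAt y := by
  by_cases h : y ≤ 1 / 2
  · exact dom_half h0 h
  · obtain ⟨d₀, d₁, hd₀, hd₁, h₀, h₁, hp⟩ := dom_half (y := 1 - y) (by linarith) (by linarith [not_le.1 h])
    refine ⟨d₁, d₀, hd₁, hd₀, ?_, ?_, ?_⟩
    · have e : (9 / 10 - 4 / 5 * y : ℝ) = 1 / 10 + 4 / 5 * (1 - y) := by ring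
      rw [e]
      exact h₁
    · have e : (1 / 10 + 4 / 5 * y : ℝ) = 9 / 10 - 4 / 5 * (1 - y) := by ring
      rw [e]
      exact h₀
    · have e : (1 / 10 + 3 / 5 * y * (1 - y) : ℝ) = 1 / 10 + 3 / 5 * (1 - y) * (1 - (1 - y)) := by ring
      rw [e]
      linarith

/-- Young: `x⁶⁴ ≤ y⁶³` gives `x ≤ (63/64) y / ζ + (1/64) ζ⁶³`. -/
lemma young {x y ζ : ℝ} (hx : 0 ≤ x) (hy : 0 < y) (hζ : 0 < ζ) (h : x ^ 64 ≤ y ^ 63) :
    x ≤ (63 / 64) * (y / ζ) + (1 / 64) * ζ ^ 63 := by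
  set A := y / ζ with hA
  set B := ζ ^ 63 with hB
  have hA0 : 0 < A := by positivity
  have hB0 : 0 < B := by positivity
  have e : A ^ 63 * B = y ^ 63 := by
    rw [hA, hB]
    field_simp
  have key : A ^ 63 * B ≤ ((63 / 64) * A + (1 / 64) * B) ^ 64 := by
    set u : ℝ := (B - A) / (64 * A) with hu
    have hu1 : -2 ≤ u := by
      rw [hu, le_div_iff₀ (by positivity)]
      nlinarith
    have hb := one_add_mul_le_pow hu1 64
    have e1 : (63 / 64) * A + (1 / 64) * B = A * (1 + u) := by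
      rw [hu]
      field_simp
      ring
    have e2 : 1 + ((64 : ℕ) : ℝ) * u = B / A := by
      rw [hu]
      push_cast
      field_simp
      ring
    rw [e2] at hb
    rw [e1, mul_pow]
    calc A ^ 63 * B = A ^ 64 * (B / A) := by
          field_simp
      _ ≤ A ^ 64 * (1 + u) ^ 64 := mul_le_mul_of_nonneg_left hb (by positivity)
  have h4 : x ^ 64 ≤ ((63 / 64) * A + (1 / 64) * B) ^ 64 := by
    rw [← e] at h
    exact h.trans key
  exact (pow_le_pow_iff_left₀ hx (by positivity) (by norm_num)).1 h4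

lemma exp_num : (1757 / 1000 : ℝ) ≤ Real.exp (3 / 40 + 49 / 20 * (1 / 5 - 31 / 100000)) := by
  have h := Real.sum_le_exp_of_nonneg (x := 3 / 40 + 49 / 20 * (1 / 5 - 31 / 100000)) (by norm_num) 8
  refine le_trans ?_ h
  simp only [Finset.sum_range_succ, Finset.sum_range_zero, Nat.factorial]
  norm_num

/-- Markov plus Young at a centre whose mean cost is close to `t/5`. -/
theorem count_lin {t : ℕ} (ht : 0 < t) (a : Fin t → ℝ) (ha : ∀ i, 0 ≤ a i ∧ a i ≤ 1)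
    (hm1 : ∑ i, mc (a i) ≤ (1 / 5) * (t : ℝ))
    (hm2 : (1 / 5 - 31 / 100000) * (t : ℝ) ≤ ∑ i, mc (a i)) :
    (1 / 10 ^ 200 : ℝ) * (1757 / 1000 : ℝ) ^ t ≤
      ((univ.filter fun q : Fin t → Bool =>
        ∑ i, (a i - bitv (q i)) ^ 2 ≤ (501 / 2500) * (t : ℝ)).card : ℝ) := by
  classical
  set good : Finset (Fin t → Bool) := univ.filter fun q : Fin t → Bool =>
    ∑ i, (a i - bitv (q i)) ^ 2 ≤ (501 / 2500) * (t : ℝ) with hgood
  choose d₀ d₁ hd₀ hd₁ hp₀ hp₁ hpoly using fun i => dom_all (ha i).1 (ha i).2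
  let dd : Fin t → Bool → ℝ := fun i b => if b then d₁ i else d₀ i
  have hdd0 : ∀ i b, 0 < dd i b := by
    intro i b
    cases b
    · simpa [dd] using hd₀ i
    · simpa [dd] using hd₁ i
  have hddsum : ∀ i, ∑ b : Bool, dd i b = d₀ i + d₁ i := by
    intro i
    rw [Fintype.sum_bool]
    simp only [dd, if_true, Bool.false_eq_true, if_false]
    ring
  have hwpow : ∀ i b, wt (a i) b ^ 64 ≤ dd i b ^ 63 := by
    intro i b
    cases b
    · simpa [dd, wt] using hp₀ i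
    · simpa [dd, wt] using hp₁ i
  let w : (Fin t → Bool) → ℝ := fun q => ∏ i, wt (a i) (q i)
  let s : (Fin t → Bool) → ℝ := fun q => ∏ i, dd i (q i)
  let cost : (Fin t → Bool) → ℝ := fun q => ∑ i, (a i - bitv (q i)) ^ 2
  have hwt0 : ∀ i b, 0 < wt (a i) b := fun i b => wt_pos (ha i).1 (ha i).2 b
  have hw0 : ∀ q, 0 < w q := fun q => Finset.prod_pos fun i _ => hwt0 i _
  have hs0 : ∀ q, 0 < s q := fun q => Finset.prod_pos fun i _ => hdd0 i _
  have hc0 : ∀ q, 0 ≤ cost q := fun q => Finset.sum_nonneg fun i _ => sq_nonneg _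
  have prod_sum : ∀ f : Fin t → Bool → ℝ,
      ∑ q : Fin t → Bool, ∏ i, f i (q i) = ∏ i, ∑ b : Bool, f i b := by
    intro f
    rw [Finset.prod_univ_sum, Fintype.piFinset_univ]
  have hw1 : ∑ q, w q = 1 := by
    show ∑ q : Fin t → Bool, ∏ i, wt (a i) (q i) = 1
    rw [prod_sum (fun i b => wt (a i) b)]
    exact Finset.prod_eq_one fun i _ => wt_sum _
  set S : ℝ := ∏ i, (d₀ i + d₁ i) with hS
  have hs1 : ∑ q, s q = S := by
    show ∑ q : Fin t → Bool, ∏ i, dd i (q i) = _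
    rw [prod_sum dd, hS]
    exact Finset.prod_congr rfl fun i _ => hddsum i
  have hSpos : 0 < S := Finset.prod_pos fun i _ => add_pos (hd₀ i) (hd₁ i)
  -- the mean of the cost
  have hmean : ∑ q, w q * cost q ≤ (1 / 5) * (t : ℝ) := by
    have h1 : ∀ j : Fin t, ∑ q, w q * (a j - bitv (q j)) ^ 2 = mc (a j) := by
      intro j
      have e : ∀ q : Fin t → Bool, w q * (a j - bitv (q j)) ^ 2 =
          ∏ i, (wt (a i) (q i) * (if i = j then (a j - bitv (q i)) ^ 2 else 1)) := by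
        intro q
        rw [Finset.prod_mul_distrib]
        congr 1
        rw [Finset.prod_ite_eq' univ j]
        simp
      simp_rw [e]
      rw [prod_sum (fun i b => wt (a i) b * (if i = j then (a j - bitv b) ^ 2 else 1))]
      rw [Finset.prod_eq_single j]
      · simp only [if_true]
        exact cost_eq _
      · intro i _ hij
        simp only [if_neg hij, mul_one]
        exact wt_sum _
      · intro h
        exact absurd (Finset.mem_univ j) h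
    calc ∑ q, w q * cost q = ∑ j : Fin t, ∑ q, w q * (a j - bitv (q j)) ^ 2 := by
          simp only [cost, Finset.mul_sum]
          rw [Finset.sum_comm]
      _ = ∑ j : Fin t, mc (a j) := Finset.sum_congr rfl fun j _ => h1 j
      _ ≤ _ := hm1
  -- the weight of the good vertices
  have hP : (1 / 501 : ℝ) ≤ ∑ q ∈ good, w q := by
    have ht0 : (0 : ℝ) < t := by exact_mod_cast ht
    have hsplit : ∑ q ∈ good, w q + ∑ q ∈ univ \ good, w q = 1 := by
      rw [← hw1]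
      exact Finset.sum_add_sum_compl good w
    have hbad : (∑ q ∈ univ \ good, w q) * ((501 / 2500) * (t : ℝ)) ≤ (1 / 5) * (t : ℝ) := by
      rw [Finset.sum_mul]
      calc ∑ q ∈ univ \ good, w q * ((501 / 2500) * (t : ℝ))
          ≤ ∑ q ∈ univ \ good, w q * cost q := by
            refine Finset.sum_le_sum fun q hq => ?_
            refine mul_le_mul_of_nonneg_left ?_ (hw0 q).le
            have hq' : q ∉ good := (Finset.mem_sdiff.1 hq).2
            rw [hgood, Finset.mem_filter] at hq'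
            push Not at hq'
            exact (hq' (Finset.mem_univ q)).le
        _ ≤ ∑ q, w q * cost q := by
            refine Finset.sum_le_sum_of_subset_of_nonneg (Finset.subset_univ _) ?_
            intro q _ _
            exact mul_nonneg (hw0 q).le (hc0 q)
        _ ≤ _ := hmean
    have hbad2 : ∑ q ∈ univ \ good, w q ≤ 500 / 501 := by
      have e : (∑ q ∈ univ \ good, w q) * ((501 / 2500) * (t : ℝ)) ≤ (500 / 501) * ((501 / 2500) * (t : ℝ)) := by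
        calc _ ≤ (1 / 5) * (t : ℝ) := hbad
          _ = _ := by ring
      exact le_of_mul_le_mul_right e (by positivity)
    linarith
  -- the count
  set N : ℝ := (good.card : ℝ) with hN
  set P : ℝ := 1 / 501 with hPdef
  have hPpos : 0 < P := by rw [hPdef]; norm_num
  set ζ : ℝ := 63 * S / (32 * P) with hζ
  have hζ0 : 0 < ζ := by positivity
  have hpt : ∀ q, w q ≤ (63 / 64) * (s q / ζ) + (1 / 64) * ζ ^ 63 := by
    intro q
    refine young (hw0 q).le (hs0 q) hζ0 ?_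
    show (∏ i, wt (a i) (q i)) ^ 64 ≤ (∏ i, dd i (q i)) ^ 63
    rw [← Finset.prod_pow, ← Finset.prod_pow]
    exact Finset.prod_le_prod (fun i _ => by have := hwt0 i (q i); positivity)
      (fun i _ => hwpow _ _)
  have hup : ∑ q ∈ good, w q ≤ (63 / 64) * (S / ζ) + (1 / 64) * ζ ^ 63 * N := by
    calc ∑ q ∈ good, w q ≤ ∑ q ∈ good, ((63 / 64) * (s q / ζ) + (1 / 64) * ζ ^ 63) :=
          Finset.sum_le_sum fun q _ => hpt q
      _ = (63 / 64) * ((∑ q ∈ good, s q) / ζ) + (1 / 64) * ζ ^ 63 * N := by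
          rw [Finset.sum_add_distrib, ← Finset.mul_sum, ← Finset.sum_div, Finset.sum_const,
            nsmul_eq_mul]
          ring
      _ ≤ (63 / 64) * (S / ζ) + (1 / 64) * ζ ^ 63 * N := by
          have h1 : ∑ q ∈ good, s q ≤ S := by
            rw [← hs1]
            exact Finset.sum_le_sum_of_subset_of_nonneg (Finset.subset_univ _)
              (fun q _ _ => (hs0 q).le)
          have h2 : (∑ q ∈ good, s q) / ζ ≤ S / ζ := div_le_div_of_nonneg_right h1 hζ0.le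
          linarith
  have e1 : (63 / 64) * (S / ζ) = P / 2 := by
    rw [hζ]
    field_simp
    ring
  have h2 : P / 2 ≤ (1 / 64) * ζ ^ 63 * N := by
    have := hP.trans hup
    rw [e1] at this
    linarith
  have h3 : 32 * (32 / 63) ^ 63 * P ^ 64 ≤ S ^ 63 * N := by
    have e2 : (1 / 64) * ζ ^ 63 * N = (1 / 64) * ((63 / 32) ^ 63 * (S ^ 63 / P ^ 63)) * N := by
      rw [hζ]
      field_simp
    rw [e2] at h2
    have hP3 : 0 < P ^ 63 := by positivity
    have h4 : P / 2 * P ^ 63 ≤ (1 / 64) * ((63 / 32) ^ 63 * (S ^ 63 / P ^ 63)) * N * P ^ 63 :=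
      mul_le_mul_of_nonneg_right h2 hP3.le
    have e3 : (1 / 64) * ((63 / 32) ^ 63 * (S ^ 63 / P ^ 63)) * N * P ^ 63 =
        (1 / 64) * (63 / 32) ^ 63 * (S ^ 63 * N) := by
      field_simp
    rw [e3] at h4
    have h5 : (32 / 63 : ℝ) ^ 63 * (63 / 32) ^ 63 = 1 := by
      rw [← mul_pow]
      norm_num
    have h7 := mul_le_mul_of_nonneg_left h4 (by positivity : (0 : ℝ) ≤ 64 * (32 / 63 : ℝ) ^ 63)
    have e4 : 64 * (32 / 63 : ℝ) ^ 63 * ((1 / 64) * (63 / 32) ^ 63 * (S ^ 63 * N)) =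
        ((32 / 63 : ℝ) ^ 63 * (63 / 32) ^ 63) * (S ^ 63 * N) := by ring
    rw [e4, h5, one_mul] at h7
    calc 32 * (32 / 63) ^ 63 * P ^ 64 = 64 * (32 / 63 : ℝ) ^ 63 * (P / 2 * P ^ 63) := by ring
      _ ≤ _ := h7
  -- numerics
  have h5 : (1 / 10 ^ 200 : ℝ) ≤ 32 * (32 / 63) ^ 63 * P ^ 64 := by
    rw [hPdef]
    norm_num
  -- the product of the dominating sums
  set G₁ : ℝ := 3 / 40 + 49 / 20 * (1 / 5 - 31 / 100000) with hG₁
  have h6 : (1757 / 1000 : ℝ) ^ t * S ^ 63 ≤ 1 := by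
    have hS1 : S ≤ Real.exp (∑ i, (d₀ i + d₁ i - 1)) := by
      rw [Real.exp_sum, hS]
      refine Finset.prod_le_prod (fun i _ => (add_pos (hd₀ i) (hd₁ i)).le) fun i _ => ?_
      have := Real.add_one_le_exp (d₀ i + d₁ i - 1)
      linarith
    have hS2 : S ^ 63 ≤ Real.exp (((63 : ℕ) : ℝ) * ∑ i, (d₀ i + d₁ i - 1)) := by
      rw [Real.exp_nat_mul]
      exact pow_le_pow_left₀ hSpos.le hS1 _
    have hsum : ((63 : ℕ) : ℝ) * ∑ i, (d₀ i + d₁ i - 1) ≤ -(G₁ * (t : ℝ)) := by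
      have h7 : ∀ i, 63 * (d₀ i + d₁ i - 1) ≤ -(3 / 40 + 49 / 20 * mc (a i)) := by
        intro i
        have := hpoly i
        unfold mc
        linarith
      have h8 : ∑ i, (63 * (d₀ i + d₁ i - 1)) ≤ ∑ i, (-(3 / 40 + 49 / 20 * mc (a i))) :=
        Finset.sum_le_sum fun i _ => h7 i
      rw [← Finset.mul_sum, Finset.sum_neg_distrib, Finset.sum_add_distrib, ← Finset.mul_sum,
        Finset.sum_const, Finset.card_univ, Fintype.card_fin, nsmul_eq_mul] at h8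
      push_cast
      rw [hG₁]
      nlinarith
    have hS3 : S ^ 63 ≤ Real.exp (-(G₁ * (t : ℝ))) :=
      hS2.trans (Real.exp_le_exp.2 hsum)
    have hL : (1757 / 1000 : ℝ) ^ t ≤ Real.exp (G₁ * (t : ℝ)) := by
      have h9 : (1757 / 1000 : ℝ) ^ t ≤ Real.exp G₁ ^ t :=
        pow_le_pow_left₀ (by norm_num) exp_num _
      rw [← Real.exp_nat_mul, mul_comm] at h9
      exact h9
    calc (1757 / 1000 : ℝ) ^ t * S ^ 63
        ≤ Real.exp (G₁ * (t : ℝ)) * Real.exp (-(G₁ * (t : ℝ))) :=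
          mul_le_mul hL hS3 (by positivity) (by positivity)
      _ = 1 := by
          rw [← Real.exp_add]
          simp
  have hN0 : 0 ≤ N := Nat.cast_nonneg _
  have hg : (0 : ℝ) < (1757 / 1000 : ℝ) ^ t := by positivity
  calc (1 / 10 ^ 200 : ℝ) * (1757 / 1000 : ℝ) ^ t
      ≤ (32 * (32 / 63) ^ 63 * P ^ 64) * (1757 / 1000 : ℝ) ^ t := mul_le_mul_of_nonneg_right h5 hg.le
    _ ≤ (S ^ 63 * N) * (1757 / 1000 : ℝ) ^ t := mul_le_mul_of_nonneg_right h3 hg.le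
    _ = ((1757 / 1000 : ℝ) ^ t * S ^ 63) * N := by ring
    _ ≤ 1 * N := mul_le_mul_of_nonneg_right h6 hN0
    _ = N := one_mul _

/-- the residue of `v - j` modulo `N` for `v, j < N` -/
def Rr (N v j : ℕ) : ℕ := if j ≤ v then v - j else v + N - j

lemma Rr_lt {N v j : ℕ} (hv : v < N) (hj : j < N) : Rr N v j < N := by
  unfold Rr
  split_ifs <;> omega

lemma mc_cast {N : ℕ} (hN : 0 < N) (r : ℕ) :
    mc ((r : ℝ) / (N : ℝ)) = 1 / 10 + 3 / 5 * ((r : ℝ) * ((N : ℝ) - r)) / (N : ℝ) ^ 2 := by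
  have hN0 : (N : ℝ) ≠ 0 := by exact_mod_cast hN.ne'
  unfold mc
  field_simp

lemma sum_id (n : ℕ) : ∑ s ∈ range n, (s : ℝ) = (n : ℝ) * ((n : ℝ) - 1) / 2 := by
  induction n with
  | zero => simp
  | succ k ih =>
    rw [Finset.sum_range_succ, ih]
    push_cast
    ring

lemma sum_sq (n : ℕ) : ∑ s ∈ range n, (s : ℝ) ^ 2 = ((n : ℝ) - 1) * (n : ℝ) * (2 * (n : ℝ) - 1) / 6 := by
  induction n with
  | zero => simp
  | succ k ih =>
    rw [Finset.sum_range_succ, ih]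
    push_cast
    ring

/-- the total mean cost over all residues -/
lemma sum_mc {N : ℕ} (hN : 0 < N) :
    ∑ r ∈ range N, mc ((r : ℝ) / (N : ℝ)) = (N : ℝ) / 5 - 1 / (10 * (N : ℝ)) := by
  have hN0 : (N : ℝ) ≠ 0 := by exact_mod_cast hN.ne'
  have e : ∀ r ∈ range N, mc ((r : ℝ) / (N : ℝ)) =
      1 / 10 + (3 / 5 / (N : ℝ) ^ 2) * ((N : ℝ) * (r : ℝ) - (r : ℝ) ^ 2) := by
    intro r _
    rw [mc_cast hN]
    field_simp
  rw [Finset.sum_congr rfl e, Finset.sum_add_distrib, Finset.sum_const, card_range, nsmul_eq_mul,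
    ← Finset.mul_sum, Finset.sum_sub_distrib, ← Finset.mul_sum, sum_id, sum_sq]
  field_simp
  ring

/-- reflection of residues -/
lemma sum_reflect {N v : ℕ} (hv : v < N) (f : ℕ → ℝ) :
    ∑ j ∈ range N, f (Rr N v j) = ∑ r ∈ range N, f r := by
  unfold Rr
  refine Finset.sum_nbij' (fun j => if j ≤ v then v - j else v + N - j)
    (fun j => if j ≤ v then v - j else v + N - j) ?_ ?_ ?_ ?_ ?_
  · intro j hj
    rw [mem_range] at *
    split_ifs <;> omega
  · intro j hj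
    rw [mem_range] at *
    split_ifs <;> omega
  · intro j hj
    rw [mem_range] at hj
    split_ifs <;> omega
  · intro j hj
    rw [mem_range] at hj
    split_ifs <;> omega
  · intro j _
    rfl

lemma step_aux {N : ℕ} (hN : 0 < N) (r : ℕ) (hr : r + 1 < N) :
    |mc ((r : ℝ) / (N : ℝ)) - mc (((r + 1 : ℕ) : ℝ) / (N : ℝ))| ≤ 3 / 5 / (N : ℝ) := by
  have hN0 : (0 : ℝ) < N := by exact_mod_cast hN
  have hr' : (r : ℝ) + 1 < N := by exact_mod_cast hr
  have hr0 : (0 : ℝ) ≤ r := Nat.cast_nonneg r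
  have e : mc ((r : ℝ) / (N : ℝ)) - mc (((r + 1 : ℕ) : ℝ) / (N : ℝ)) =
      (3 / 5 * (2 * (r : ℝ) + 1 - (N : ℝ))) / (N : ℝ) ^ 2 := by
    rw [mc_cast hN, mc_cast hN]
    push_cast
    field_simp
    ring
  rw [e, abs_le]
  have e2 : 3 / 5 / (N : ℝ) = (3 / 5 * (N : ℝ)) / (N : ℝ) ^ 2 := by
    field_simp
  rw [e2]
  constructor
  · rw [← neg_div]
    apply div_le_div_of_nonneg_right _ (by positivity)
    nlinarith
  · apply div_le_div_of_nonneg_right _ (by positivity)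
    nlinarith

lemma step_wrap {N : ℕ} (hN : 1 < N) :
    |mc (((N - 1 : ℕ) : ℝ) / (N : ℝ)) - mc (((0 : ℕ) : ℝ) / (N : ℝ))| ≤ 3 / 5 / (N : ℝ) := by
  have hN' : 0 < N := by omega
  have hN0 : (1 : ℝ) < N := by exact_mod_cast hN
  have hN1 : (0 : ℝ) < N := by linarith
  have e : mc (((N - 1 : ℕ) : ℝ) / (N : ℝ)) - mc (((0 : ℕ) : ℝ) / (N : ℝ)) =
      (3 / 5 * ((N : ℝ) - 1)) / (N : ℝ) ^ 2 := by
    rw [mc_cast hN', mc_cast hN', Nat.cast_sub (by omega)]
    push_cast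
    field_simp
    ring
  rw [e, abs_le]
  have e2 : 3 / 5 / (N : ℝ) = (3 / 5 * (N : ℝ)) / (N : ℝ) ^ 2 := by
    field_simp
  rw [e2]
  constructor
  · rw [← neg_div]
    apply div_le_div_of_nonneg_right _ (by positivity)
    nlinarith
  · apply div_le_div_of_nonneg_right _ (by positivity)
    nlinarith

/-- One step of the shift moves the mean cost a little. -/
lemma step_mc {N v j : ℕ} (hv : v < N) (hj : j + 1 < N) :
    |mc ((Rr N v (j + 1) : ℝ) / (N : ℝ)) - mc ((Rr N v j : ℝ) / (N : ℝ))| ≤ 3 / 5 / (N : ℝ) := by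
  have hN : 0 < N := by omega
  by_cases h1 : j + 1 ≤ v
  · have e1 : Rr N v (j + 1) = v - (j + 1) := by
      unfold Rr
      rw [if_pos h1]
    have e2 : Rr N v j = (v - (j + 1)) + 1 := by
      unfold Rr
      rw [if_pos (by omega)]
      omega
    rw [e1, e2]
    exact step_aux hN _ (by omega)
  · by_cases h2 : j = v
    · have e1 : Rr N v (j + 1) = N - 1 := by
        unfold Rr
        rw [if_neg (by omega)]
        omega
      have e2 : Rr N v j = 0 := by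
        unfold Rr
        rw [if_pos (by omega)]
        omega
      rw [e1, e2]
      exact step_wrap (by omega)
    · have e1 : Rr N v (j + 1) = v + N - (j + 1) := by
        unfold Rr
        rw [if_neg (by omega)]
      have e2 : Rr N v j = (v + N - (j + 1)) + 1 := by
        unfold Rr
        rw [if_neg (by omega)]
        omega
      rw [e1, e2]
      exact step_aux hN _ (by omega)

lemma ivt_up (f : ℕ → ℝ) {Δ A : ℝ} (hΔ : 0 ≤ Δ) {N j₀ : ℕ}
    (hstep : ∀ j, j + 1 < N → |f (j + 1) - f j| ≤ Δ) :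
    ∀ k, j₀ + k < N → f j₀ ≤ A → A ≤ f (j₀ + k) → ∃ j, j < N ∧ A - Δ ≤ f j ∧ f j ≤ A := by
  intro k
  induction k with
  | zero =>
    intro h1 h2 h3
    exact ⟨j₀, by omega, by simp only [add_zero] at h3; linarith, h2⟩
  | succ k ih =>
    intro h1 h2 h3
    by_cases h : A ≤ f (j₀ + k)
    · exact ih (by omega) h2 h
    · have h4 := abs_le.1 (hstep (j₀ + k) (by omega))
      refine ⟨j₀ + k, by omega, ?_, (not_le.1 h).le⟩
      have e : j₀ + (k + 1) = j₀ + k + 1 := by omega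
      rw [e] at h3
      linarith [h4.2]

lemma ivt_down (f : ℕ → ℝ) {Δ A : ℝ} (hΔ : 0 ≤ Δ) {N j₁ : ℕ}
    (hstep : ∀ j, j + 1 < N → |f (j + 1) - f j| ≤ Δ) :
    ∀ k, j₁ + k < N → A ≤ f j₁ → f (j₁ + k) ≤ A → ∃ j, j < N ∧ A - Δ ≤ f j ∧ f j ≤ A := by
  intro k
  induction k with
  | zero =>
    intro h1 h2 h3
    exact ⟨j₁, by omega, by linarith, by simpa using h3⟩
  | succ k ih =>
    intro h1 h2 h3
    by_cases h : f (j₁ + k) ≤ A
    · exact ih (by omega) h2 h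
    · have h4 := abs_le.1 (hstep (j₁ + k) (by omega))
      have e : j₁ + (k + 1) = j₁ + k + 1 := by omega
      rw [e] at h3 h1
      refine ⟨j₁ + k + 1, h1, ?_, h3⟩
      linarith [h4.1, not_le.1 h]

/-- A centre whose mean cost is close to `t/5`. -/
theorem exists_center_lin {t n : ℕ} (hn : 1000 ≤ n) (v : Fin t → ℕ) (hv : ∀ i, v i < 2 * n) :
    ∃ j, j < 2 * n ∧
      (1 / 5 - 31 / 100000) * (t : ℝ) ≤ ∑ i, mc ((Rr (2 * n) (v i) j : ℝ) / ((2 * n : ℕ) : ℝ)) ∧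
      ∑ i, mc ((Rr (2 * n) (v i) j : ℝ) / ((2 * n : ℕ) : ℝ)) ≤ (1 / 5) * (t : ℝ) := by
  set N : ℕ := 2 * n with hNdef
  have hN : 0 < N := by omega
  have hN2 : (2000 : ℝ) ≤ N := by
    have : 2000 ≤ N := by omega
    exact_mod_cast this
  have hN0 : (0 : ℝ) < N := by linarith
  let F : ℕ → ℝ := fun j => ∑ i, mc ((Rr N (v i) j : ℝ) / (N : ℝ))
  set Δ : ℝ := (t : ℝ) * (3 / 5 / (N : ℝ)) with hΔdef
  have hΔ : 0 ≤ Δ := by positivity
  have hstep : ∀ j, j + 1 < N → |F (j + 1) - F j| ≤ Δ := by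
    intro j hj
    show |∑ i, mc ((Rr N (v i) (j + 1) : ℝ) / (N : ℝ)) - ∑ i, mc ((Rr N (v i) j : ℝ) / (N : ℝ))| ≤ Δ
    rw [← Finset.sum_sub_distrib]
    refine (Finset.abs_sum_le_sum_abs _ _).trans ?_
    calc ∑ i, |mc ((Rr N (v i) (j + 1) : ℝ) / (N : ℝ)) - mc ((Rr N (v i) j : ℝ) / (N : ℝ))|
        ≤ ∑ _i : Fin t, (3 / 5 / (N : ℝ)) := Finset.sum_le_sum fun i _ => step_mc (hv i) hj
      _ = Δ := by
        simp [hΔdef]
  set A : ℝ := (t : ℝ) * (1 / 5 - 1 / (10 * (N : ℝ) ^ 2)) with hA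
  have hsum : ∑ j ∈ range N, F j = ∑ _j ∈ range N, A := by
    show ∑ j ∈ range N, ∑ i, mc ((Rr N (v i) j : ℝ) / (N : ℝ)) = _
    rw [Finset.sum_comm]
    have h : ∀ i ∈ (univ : Finset (Fin t)),
        ∑ j ∈ range N, mc ((Rr N (v i) j : ℝ) / (N : ℝ)) = (N : ℝ) / 5 - 1 / (10 * (N : ℝ)) := by
      intro i _
      rw [← sum_mc hN]
      exact sum_reflect (hv i) (fun r => mc ((r : ℝ) / (N : ℝ)))
    rw [Finset.sum_congr rfl h]
    simp only [Finset.sum_const, Finset.card_univ, Fintype.card_fin, card_range, nsmul_eq_mul]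
    rw [hA]
    field_simp
  have hs : (range N).Nonempty := ⟨0, mem_range.2 hN⟩
  obtain ⟨j₀, hj₀, h₀⟩ := Finset.exists_le_of_sum_le hs hsum.le
  obtain ⟨j₁, hj₁, h₁⟩ := Finset.exists_le_of_sum_le hs hsum.ge
  rw [mem_range] at hj₀ hj₁
  have hex : ∃ j, j < N ∧ A - Δ ≤ F j ∧ F j ≤ A := by
    by_cases hle : j₀ ≤ j₁
    · refine ivt_up F hΔ hstep (j₁ - j₀) (by omega) h₀ ?_
      have e : j₀ + (j₁ - j₀) = j₁ := by omega
      rw [e]
      exact h₁
    · refine ivt_down F hΔ hstep (j₀ - j₁) (by omega) h₁ ?_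
      have e : j₁ + (j₀ - j₁) = j₀ := by omega
      rw [e]
      exact h₀
  obtain ⟨j, hj, h1, h2⟩ := hex
  have ht0 : (0 : ℝ) ≤ t := Nat.cast_nonneg t
  have h3 : 1 / (10 * (N : ℝ) ^ 2) ≤ 1 / 100000 := by
    apply one_div_le_one_div_of_le (by norm_num)
    nlinarith
  have h4 : 3 / 5 / (N : ℝ) ≤ 30 / 100000 := by
    rw [div_le_iff₀ hN0]
    nlinarith
  have h5 : 0 < 1 / (10 * (N : ℝ) ^ 2) := by positivity
  refine ⟨j, hj, ?_, ?_⟩
  · refine le_trans ?_ h1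
    rw [hA, hΔdef]
    nlinarith [mul_le_mul_of_nonneg_left h3 ht0, mul_le_mul_of_nonneg_left h4 ht0]
  · refine h2.trans ?_
    rw [hA]
    nlinarith [mul_le_mul_of_nonneg_left h5.le ht0]

/-- `Qf` is at most the shifted sum of squares. -/
lemma Qf_le {t : ℕ} (x : Fin t → ℝ) (μ : ℝ) : Qf x ≤ μ ^ 2 + ∑ i, (x i - μ) ^ 2 := by
  have h : ∑ i, (x i - μ) ^ 2 = ∑ i, x i ^ 2 - 2 * μ * ∑ i, x i + (t : ℝ) * μ ^ 2 := by
    have e : ∀ i, (x i - μ) ^ 2 = x i ^ 2 - 2 * μ * x i + μ ^ 2 := fun i => by ring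
    simp_rw [e]
    rw [Finset.sum_add_distrib, Finset.sum_sub_distrib, ← Finset.mul_sum, Finset.sum_const,
      Finset.card_univ, Fintype.card_fin, nsmul_eq_mul]
  unfold Qf
  rw [h]
  set s := ∑ i, x i
  have ht : (0 : ℝ) < (t : ℝ) + 1 := by positivity
  have h2 : 2 * μ * s - ((t : ℝ) + 1) * μ ^ 2 ≤ s ^ 2 / ((t : ℝ) + 1) := by
    rw [le_div_iff₀ ht]
    nlinarith [sq_nonneg (s - ((t : ℝ) + 1) * μ)]
  nlinarith

end LinAux

open LinAux

/-- Good leaves around a shifted centre, linear rounding rule. -/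
theorem leaf_count_lin {t n : ℕ} (ht : 10000 ≤ t) (hn : 1000 ≤ n) (u : Fin t → ℤ)
    (hu : ∀ i, 0 ≤ u i ∧ u i < ((2 * n : ℕ) : ℤ)) :
    ∃ κ : Fin t → ℤ, (∀ i, κ i = 0 ∨ κ i = 1) ∧
      leafL t ≤ (univ.filter fun q : Fin t → Bool =>
        Qf (fun i => (((u i + κ i * ((2 * n : ℕ) : ℤ) - (if q i then ((2 * n : ℕ) : ℤ) else 0) : ℤ)) : ℝ) /
          ((2 * n : ℕ) : ℝ)) ≤ (401 / 2000) * (t : ℝ)).card := by
  classical
  obtain ⟨v, hv⟩ : ∃ v : Fin t → ℕ, ∀ i, u i = (v i : ℤ) :=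
    ⟨fun i => (u i).toNat, fun i => (Int.toNat_of_nonneg (hu i).1).symm⟩
  have hv' : ∀ i, v i < 2 * n := by
    intro i
    have h := (hu i).2
    rw [hv i] at h
    exact_mod_cast h
  obtain ⟨j, hj, hjm2, hjm1⟩ := exists_center_lin hn v hv'
  set a : Fin t → ℝ := fun i => ((Rr (2 * n) (v i) j : ℕ) : ℝ) / ((2 * n : ℕ) : ℝ) with ha
  refine ⟨fun i => if j ≤ v i then 0 else 1, fun i => by by_cases h : j ≤ v i <;> simp [h], ?_⟩
  have hN0 : (0 : ℝ) < ((2 * n : ℕ) : ℝ) := by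
    have : 0 < 2 * n := by omega
    exact_mod_cast this
  have ha01 : ∀ i, 0 ≤ a i ∧ a i ≤ 1 := by
    intro i
    refine ⟨by positivity, ?_⟩
    simp only [ha]
    rw [div_le_one hN0]
    have := Rr_lt (hv' i) hj
    exact_mod_cast this.le
  have hcount := count_lin (by omega) a ha01 hjm1 hjm2
  unfold leafL
  apply Nat.ceil_le.2
  refine hcount.trans ?_
  have ht1 : (10000 : ℝ) ≤ t := by exact_mod_cast ht
  apply Nat.cast_le.2
  apply Finset.card_le_card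
  intro q hq
  rw [mem_filter] at hq ⊢
  refine ⟨mem_univ _, ?_⟩
  set μ : ℝ := (j : ℝ) / ((2 * n : ℕ) : ℝ) with hμ
  set x : Fin t → ℝ := fun i =>
    (((u i + (if j ≤ v i then 0 else 1) * ((2 * n : ℕ) : ℤ) - (if q i then ((2 * n : ℕ) : ℤ) else 0) : ℤ)) : ℝ) /
      ((2 * n : ℕ) : ℝ) with hx
  have hxa : ∀ i, x i - μ = a i - bitv (q i) := by
    intro i
    simp only [hx, ha, hμ, hv i, Rr]
    have hne : ((2 * n : ℕ) : ℝ) ≠ 0 := hN0.ne'
    by_cases h : j ≤ v i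
    · rw [if_pos h, if_pos h, Nat.cast_sub h]
      cases q i <;> simp only [bitv, if_true, if_false, Bool.false_eq_true] <;> push_cast <;>
        field_simp <;> ring
    · have h' : j ≤ v i + 2 * n := by omega
      rw [if_neg h, if_neg h, Nat.cast_sub h']
      cases q i <;> simp only [bitv, if_true, if_false, Bool.false_eq_true] <;> push_cast <;>
        field_simp <;> ring
  have hμ1 : μ ^ 2 ≤ 1 := by
    have h0 : 0 ≤ μ := by positivity
    have h1 : μ ≤ 1 := by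
      rw [hμ, div_le_one hN0]
      exact_mod_cast hj.le
    nlinarith
  calc Qf x ≤ μ ^ 2 + ∑ i, (x i - μ) ^ 2 := Qf_le x μ
    _ = μ ^ 2 + ∑ i, (a i - bitv (q i)) ^ 2 := by simp_rw [hxa]
    _ ≤ 1 + (501 / 2500) * (t : ℝ) := add_le_add hμ1 hq.2
    _ ≤ (401 / 2000) * (t : ℝ) := by linarith

end Vale.Agent.Lib.P230.Star
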