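import Vale.Agent.Lib.P230.Star.Defs
import Vale.Agent.Lib.P230.Lin.Params3

/-! MODULE S6: the numerics of the star route. `L = clog 2 (4 n)`, so `8 n ≤ 2 ^ (L + 1)`; `t` is the
least integer with `(19/10)^t ≥ 10^72 (L + 1)`, so `leafS t ≥ 10^12 (L + 1)`, `t ≤ 3 s + 53` with
`L ≤ 2^s`, `√(t+1) ≤ (10031/10000)^t` for `t ≥ 2000` and `((208/97) (10031/10000))^200 ≤ (19/10)^239`. -/

set_option autoImplicit false

open Filter Topology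

namespace Vale.Agent.Lib.P230.Star

open Vale.Agent.Lib.P230.Lin

namespace StarParamsAux

open Vale.Agent.Lib.P230 Vale.Agent.Lib.P230.ParamsAux Vale.Agent.Lib.P230.Ball.ParamsBallAux
open Vale.Agent.Lib.P230.Lin.Params3Aux

lemma bigL3 (L : ℕ) (hL : 200 ≤ L) : 2 ^ 80 * (L ^ 3 * (3 * L + 53)) ≤ 2 ^ (L - 3) := by
  induction L, hL using Nat.le_induction with
  | base => norm_num
  | succ L hL ih =>
    have h1 : L + 1 - 3 = (L - 3) + 1 := by omega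
    rw [h1, pow_succ]
    have h2 : (L + 1) ^ 3 * (3 * (L + 1) + 53) ≤ 2 * (L ^ 3 * (3 * L + 53)) := by
      obtain ⟨k, rfl⟩ : ∃ k, L = k + 200 := ⟨L - 200, by omega⟩
      ring_nf
      omega
    calc 2 ^ 80 * ((L + 1) ^ 3 * (3 * (L + 1) + 53))
        ≤ 2 ^ 80 * (2 * (L ^ 3 * (3 * L + 53))) := Nat.mul_le_mul_left _ h2
      _ = (2 ^ 80 * (L ^ 3 * (3 * L + 53))) * 2 := by ring
      _ ≤ 2 ^ (L - 3) * 2 := Nat.mul_le_mul_right _ ih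

lemma succ_le_pow (t : ℕ) (ht : 2000 ≤ t) : (t : ℝ) + 1 ≤ (503 / 500 : ℝ) ^ t := by
  induction t, ht using Nat.le_induction with
  | base =>
    have e : (503 / 500 : ℝ) ^ 2000 = ((503 / 500 : ℝ) ^ 200) ^ 10 := pow_mul (503 / 500 : ℝ) 200 10
    rw [e]
    have h3 : (3 : ℝ) ≤ (503 / 500 : ℝ) ^ 200 := by norm_num
    calc ((2000 : ℕ) : ℝ) + 1 ≤ 3 ^ 10 := by norm_num
      _ ≤ _ := pow_le_pow_left₀ (by norm_num) h3 10
  | succ t ht ih =>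
    rw [pow_succ]
    push_cast
    have h : (2000 : ℝ) ≤ t := by exact_mod_cast ht
    nlinarith

lemma sqrt_le_pow (t : ℕ) (ht : 2000 ≤ t) :
    Real.sqrt ((t : ℝ) + 1) ≤ (10031 / 10000 : ℝ) ^ t := by
  apply Real.sqrt_le_iff.2
  refine ⟨by positivity, ?_⟩
  calc (t : ℝ) + 1 ≤ (503 / 500 : ℝ) ^ t := succ_le_pow t ht
    _ ≤ ((10031 / 10000 : ℝ) ^ 2) ^ t := pow_le_pow_left₀ (by norm_num) (by norm_num) t
    _ = ((10031 / 10000 : ℝ) ^ t) ^ 2 := by rw [← pow_mul, ← pow_mul, mul_comm]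

lemma C1star {n t L a : ℕ} (h8n : 8 * n ≤ 2 ^ L) (hLt : L * t ≤ a) :
    (8 * (n : ℝ)) ^ t ≤ 2 ^ a := by
  have h2 : (8 * (n : ℝ)) ≤ 2 ^ L := by exact_mod_cast h8n
  calc (8 * (n : ℝ)) ^ t ≤ (2 ^ L) ^ t := pow_le_pow_left₀ (by positivity) h2 t
    _ = 2 ^ (L * t) := (pow_mul _ _ _).symm
    _ ≤ 2 ^ a := pow_le_pow_right₀ (by norm_num) hLt

lemma C2star {n t d L b N : ℕ} (hn : 0 < n) (h8n : 8 * n ≤ 2 ^ L)
    (hk : 1 + L * d + L * t * (2 ^ t - 1) < b * N) :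
    ((8 * (n : ℝ)) ^ t) ^ (2 ^ t - 1) * ((1 / 2 : ℝ) ^ b) ^ N <
      (1 / 2) * (1 / (4 * (n : ℝ))) ^ d := by
  have hn0 : (0 : ℝ) < n := by exact_mod_cast hn
  obtain ⟨M, hM⟩ : ∃ M, M = 2 ^ t - 1 := ⟨_, rfl⟩
  rw [← hM] at hk ⊢
  obtain ⟨A, hA⟩ : ∃ A, A = L * t * M := ⟨_, rfl⟩
  rw [← hA] at hk
  obtain ⟨E, hE⟩ : ∃ E, b * N = A + E := ⟨b * N - A, by omega⟩
  have hEk : 1 + L * d < E := by omega
  have h2 : (8 * (n : ℝ)) ≤ 2 ^ L := by exact_mod_cast h8n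
  have h1 : ((8 * (n : ℝ)) ^ t) ^ M ≤ 2 ^ A := by
    calc ((8 * (n : ℝ)) ^ t) ^ M ≤ ((2 ^ L) ^ t) ^ M :=
          pow_le_pow_left₀ (by positivity) (pow_le_pow_left₀ (by positivity) h2 t) M
      _ = 2 ^ A := by rw [← pow_mul, ← pow_mul, hA, mul_assoc]
  have h3 : ((1 / 2 : ℝ) ^ b) ^ N = (1 / 2) ^ A * (1 / 2) ^ E := by
    rw [← pow_mul, hE, pow_add]
  have h4 : (2 : ℝ) ^ A * (1 / 2) ^ A = 1 := by
    rw [← mul_pow]
    norm_num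
  have h5 : (1 / 2 : ℝ) ^ (1 + L * d) ≤ (1 / 2) * (1 / (4 * (n : ℝ))) ^ d := by
    rw [pow_add, pow_one, pow_mul]
    apply mul_le_mul_of_nonneg_left _ (by norm_num)
    apply pow_le_pow_left₀ (by positivity)
    rw [one_div_pow]
    apply one_div_le_one_div_of_le (by positivity)
    have h6 : (4 * (n : ℝ)) ≤ 8 * (n : ℝ) := by nlinarith
    exact h6.trans h2
  have h6 : (1 / 2 : ℝ) ^ E < (1 / 2) ^ (1 + L * d) :=
    pow_lt_pow_right_of_lt_one₀ (by norm_num) (by norm_num) hEk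
  calc ((8 * (n : ℝ)) ^ t) ^ M * ((1 / 2 : ℝ) ^ b) ^ N
      ≤ 2 ^ A * ((1 / 2 : ℝ) ^ A * (1 / 2) ^ E) := by
        rw [h3]
        exact mul_le_mul_of_nonneg_right h1 (by positivity)
    _ = (1 / 2 : ℝ) ^ E := by rw [← mul_assoc, h4, one_mul]
    _ < (1 / 2) ^ (1 + L * d) := h6
    _ ≤ _ := h5

/-- The threshold on `log n`. -/
noncomputable def Zstar : ℝ := C₃ ^ 200 * ((57 / 10 * 10 ^ 72) ^ 239)

lemma Zstar_ge : 6 ≤ Zstar := by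
  unfold Zstar
  have h1 : 1 ≤ C₃ ^ 200 := one_le_pow₀ C₃_one
  have h2 : (6 : ℝ) ≤ (57 / 10 * 10 ^ 72 : ℝ) ^ 239 := by
    calc (6 : ℝ) ≤ (57 / 10 * 10 ^ 72 : ℝ) ^ 1 := by norm_num
      _ ≤ _ := pow_le_pow_right₀ (by norm_num) (by norm_num)
  nlinarith

/-- The last condition. -/
lemma C3star {n t d L : ℕ} (hn8 : 8 ≤ n) (hdn : d ≤ n)
    (hLn : 2 ^ (L - 3) ≤ n) (hL64 : 64 ≤ L) (hm1 : 1 ≤ mstar2 d) (ht2 : 2000 ≤ t)
    (htW : (19 / 10 : ℝ) ^ t ≤ (19 / 10) * (10 ^ 72 * ((L : ℝ) + 1)))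
    (hZ : Zstar ≤ Real.log n) :
    (10 / 9) * (16000000 * (208 / 97) ^ t) * Real.sqrt ((t : ℝ) + 1) *
        ((1 - 2 / (n : ℝ))⁻¹) ^ d * 2 ^ (efin2 d + 2) ≤
      (n : ℝ) * (Real.log n) ^ (6 / 5 : ℝ) := by
  have hl2a := Real.log_two_gt_d9
  have hl2b := Real.log_two_lt_d9
  have hn0 : (0 : ℝ) < n := by
    have : 0 < n := by omega
    exact_mod_cast this
  obtain ⟨x, hx⟩ : ∃ x, x = Real.log n := ⟨_, rfl⟩
  rw [← hx] at hZ ⊢
  have hZ6 := Zstar_ge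
  have hx6 : 6 ≤ x := le_trans hZ6 hZ
  have hx0 : 0 < x := by linarith
  have hx1 : 1 ≤ x := by linarith
  -- `L ≤ 2 x`
  have hLx : (L : ℝ) ≤ 2 * x := by
    have h1 : ((2 : ℝ) ^ (L - 3)) ≤ n := by exact_mod_cast hLn
    have h2 := Real.log_le_log (by positivity) h1
    rw [Real.log_pow, ← hx] at h2
    have h3 : (L : ℝ) = ((L - 3 : ℕ) : ℝ) + 3 := by
      have : L = (L - 3) + 3 := by omega
      exact_mod_cast this
    have ha : (0 : ℝ) ≤ ((L - 3 : ℕ) : ℝ) := Nat.cast_nonneg _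
    nlinarith
  have hL0 : (0 : ℝ) ≤ L := Nat.cast_nonneg L
  set y : ℝ := x ^ (6 / 5 : ℝ) with hy
  have hy0 : 0 ≤ y := by rw [hy]; positivity
  have hy200 : y ^ 200 = x ^ 240 := by
    rw [hy, ← Real.rpow_natCast, ← Real.rpow_mul hx0.le, ← Real.rpow_natCast]
    norm_num
  have hA0 : (0 : ℝ) ≤ (208 / 97 * (10031 / 10000)) := by norm_num
  -- the main power bound
  have hmain : C₃ * (208 / 97 * (10031 / 10000) : ℝ) ^ t ≤ y := by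
    have h5 : (C₃ * (208 / 97 * (10031 / 10000) : ℝ) ^ t) ^ 200 ≤ y ^ 200 := by
      have e1 : (C₃ * (208 / 97 * (10031 / 10000) : ℝ) ^ t) ^ 200 =
          C₃ ^ 200 * ((208 / 97 * (10031 / 10000) : ℝ) ^ 200) ^ t := by
        rw [mul_pow, ← pow_mul, ← pow_mul, mul_comm t 200]
      have e2 : ((208 / 97 * (10031 / 10000) : ℝ) ^ 200) ^ t ≤ ((19 / 10 : ℝ) ^ 239) ^ t :=
        pow_le_pow_left₀ (by positivity) (by norm_num) _
      have e3 : ((19 / 10 : ℝ) ^ 239) ^ t = ((19 / 10 : ℝ) ^ t) ^ 239 := by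
        rw [← pow_mul, ← pow_mul, mul_comm]
      have e4 : (19 / 10 : ℝ) ^ t ≤ (57 / 10 * 10 ^ 72) * x := by
        calc (19 / 10 : ℝ) ^ t ≤ (19 / 10) * (10 ^ 72 * ((L : ℝ) + 1)) := htW
          _ ≤ (19 / 10) * (10 ^ 72 * (3 * x)) := by
              have : (L : ℝ) + 1 ≤ 3 * x := by linarith
              gcongr
          _ = _ := by ring
      have e5 : ((19 / 10 : ℝ) ^ t) ^ 239 ≤ ((57 / 10 * 10 ^ 72) * x) ^ 239 :=
        pow_le_pow_left₀ (by positivity) e4 239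
      have e6 : Zstar * x ^ 239 ≤ x * x ^ 239 :=
        mul_le_mul_of_nonneg_right hZ (by positivity)
      have e7 : x * x ^ 239 = y ^ 200 := by
        rw [hy200, ← pow_succ']
      have hC5 : 0 ≤ C₃ ^ 200 := pow_nonneg (le_trans zero_le_one C₃_one) _
      calc (C₃ * (208 / 97 * (10031 / 10000) : ℝ) ^ t) ^ 200
          = C₃ ^ 200 * ((208 / 97 * (10031 / 10000) : ℝ) ^ 200) ^ t := e1
        _ ≤ C₃ ^ 200 * ((57 / 10 * 10 ^ 72) * x) ^ 239 :=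
            mul_le_mul_of_nonneg_left (e2.trans (e3.le.trans e5)) hC5
        _ = Zstar * x ^ 239 := by
            unfold Zstar
            rw [mul_pow]
            ring
        _ ≤ x * x ^ 239 := e6
        _ = _ := e7
    exact (pow_le_pow_iff_left₀ (by have := C₃_one; positivity) hy0 (by norm_num)).1 h5
  -- the other factors
  have P1 := sqrt_le_pow t ht2
  have P2 := inv_pow_le n d hn8 hdn
  have heff := efin2_le d hm1
  have P3 : (2 : ℝ) ^ (efin2 d + 2) ≤ 2 ^ 28 * (mstar2 d : ℝ) := by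
    have : 2 ^ (efin2 d + 2) ≤ 2 ^ 28 * mstar2 d := by
      rw [pow_add]
      calc 2 ^ efin2 d * 2 ^ 2 ≤ (2 ^ 26 * mstar2 d) * 2 ^ 2 := Nat.mul_le_mul_right _ heff
        _ = 2 ^ 28 * mstar2 d := by ring
    exact_mod_cast this
  have hmn : (mstar2 d : ℝ) ≤ n := by
    have h1 : mstar2 d ≤ d := Nat.div_le_self _ _
    exact_mod_cast h1.trans hdn
  have hstep : (10 / 9) * (16000000 * (208 / 97) ^ t) * Real.sqrt ((t : ℝ) + 1) *
      ((1 - 2 / (n : ℝ))⁻¹) ^ d * 2 ^ (efin2 d + 2) ≤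
      (mstar2 d : ℝ) * (C₃ * (208 / 97 * (10031 / 10000) : ℝ) ^ t) := by
    have hn8' : (8 : ℝ) ≤ n := by exact_mod_cast hn8
    have h12 : 0 ≤ 1 - 2 / (n : ℝ) := by
      rw [sub_nonneg, div_le_one hn0]
      linarith
    calc (10 / 9) * (16000000 * (208 / 97) ^ t) * Real.sqrt ((t : ℝ) + 1) *
          ((1 - 2 / (n : ℝ))⁻¹) ^ d * 2 ^ (efin2 d + 2)
        ≤ (10 / 9) * (16000000 * (208 / 97) ^ t) * (10031 / 10000 : ℝ) ^ t * 2 ^ 7 *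
            (2 ^ 28 * (mstar2 d : ℝ)) := by
          apply mul_le_mul (mul_le_mul (mul_le_mul_of_nonneg_left P1 (by positivity)) P2
            (pow_nonneg (inv_nonneg.2 h12) d) (by positivity)) P3 (by positivity) (by positivity)
      _ = (mstar2 d : ℝ) * (C₃ * (208 / 97 * (10031 / 10000) : ℝ) ^ t) := by
          unfold C₃
          rw [mul_pow]
          ring
  calc _ ≤ (mstar2 d : ℝ) * (C₃ * (208 / 97 * (10031 / 10000) : ℝ) ^ t) := hstep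
    _ ≤ (n : ℝ) * y := mul_le_mul hmn hmain (by have := C₃_one; positivity) hn0.le

end StarParamsAux

open Vale.Agent.Lib.P230 Vale.Agent.Lib.P230.ParamsAux Vale.Agent.Lib.P230.Ball.ParamsBallAux
  Vale.Agent.Lib.P230.Lin.Params3Aux StarParamsAux in
/-- MODULE S6 (StarParams.lean): numerics of the star route. -/
theorem params_star (d₀ : ℕ) : ∃ n₀ : ℕ, ∀ n ≥ n₀, ∃ d t : ℕ,
    d + t = n ∧ 1000 ≤ t ∧ d₀ ≤ d ∧ 1000 ≤ n ∧
    ((8 * (n : ℝ)) ^ t ≤ 2 ^ (mstar2 d / 16)) ∧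
    (((8 * (n : ℝ)) ^ t) ^ (2 ^ t - 1) * ((1 / 2 : ℝ) ^ (mstar2 d / 4)) ^ (leafS t) <
      (1 / 2) * (1 / (4 * (n : ℝ))) ^ d) ∧
    (1600000 * (t : ℝ) * ((400 * (t : ℝ) + 3) * 1660) ^ t ≤ Real.sqrt (Real.sqrt n)) ∧
    ((10 / 9) * (16000000 * (208 / 97) ^ t) * Real.sqrt ((t : ℝ) + 1) * ((1 - 2 / (n : ℝ))⁻¹) ^ d *
        2 ^ (efin2 d + 2) ≤ (n : ℝ) * (Real.log n) ^ (6 / 5 : ℝ)) := by
  classical
  have e1 : Tendsto (fun n : ℕ => Real.log n) atTop atTop :=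
    Real.tendsto_log_atTop.comp tendsto_natCast_atTop_atTop
  obtain ⟨a, ha⟩ := eventually_atTop.1 (e1.eventually_ge_atTop Zstar)
  obtain ⟨s₁, hs₁⟩ : ∃ s₁ : ℕ, s₁ = 2010 := ⟨_, rfl⟩
  have hs₁7 : 7 ≤ s₁ := by omega
  refine ⟨2 ^ (2 ^ s₁) + 2 * d₀ + a + 2 ^ 64, fun n hn => ?_⟩
  have hn1 : 2 ^ (2 ^ s₁) ≤ n := by
    generalize 2 ^ (2 ^ s₁) = A at hn ⊢
    omega
  have hn2 : 2 * d₀ ≤ n := by
    generalize 2 ^ (2 ^ s₁) = A at hn
    omega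
  have hna : a ≤ n := by
    generalize 2 ^ (2 ^ s₁) = A at hn
    omega
  have hn3 : 2 ^ 64 ≤ n := by
    generalize 2 ^ (2 ^ s₁) = A at hn
    omega
  have hn1000 : 1000 ≤ n := le_trans (by norm_num) hn3
  have hz := ha n hna
  obtain ⟨L, s, h4n, hLs, hss, hL64, hLn, hsL, hsL'⟩ := scale_facts hs₁7 hn1
  have hs2010 : 2010 ≤ s := by omega
  have hs50 : 50 ≤ s := by omega
  have h2pow : 2 ^ (s - 2) ≤ L := le_trans hsL (Nat.sub_le _ _)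
  have hL200 : 200 ≤ L := by
    have h1 : 2 ^ 8 ≤ 2 ^ (s - 2) := Nat.pow_le_pow_right (by norm_num) (by omega)
    have h2 : (200 : ℕ) ≤ 2 ^ 8 := by norm_num
    omega
  have hL1 : (1 : ℝ) ≤ (L : ℝ) + 1 := by
    have : (0 : ℝ) ≤ L := Nat.cast_nonneg L
    linarith
  have h8n : 8 * n ≤ 2 ^ (L + 1) := by
    rw [pow_succ]
    omega
  -- the choice of `t`
  have hex : ∃ t : ℕ, (10 : ℝ) ^ 72 * ((L : ℝ) + 1) ≤ (19 / 10 : ℝ) ^ t := by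
    obtain ⟨t, ht⟩ := pow_unbounded_of_one_lt ((10 : ℝ) ^ 72 * ((L : ℝ) + 1))
      (by norm_num : (1 : ℝ) < 19 / 10)
    exact ⟨t, ht.le⟩
  obtain ⟨t, ht⟩ : ∃ t, t = Nat.find hex := ⟨_, rfl⟩
  have htspec : (10 : ℝ) ^ 72 * ((L : ℝ) + 1) ≤ (19 / 10 : ℝ) ^ t := by
    rw [ht]
    exact Nat.find_spec hex
  have hLreal : (2 : ℝ) ^ (s - 2) ≤ (L : ℝ) := by exact_mod_cast h2pow
  have ht2000 : 2000 ≤ t := by
    by_contra hcon
    have h3 : t ≤ s - 2 := by omega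
    have h4 : (19 / 10 : ℝ) ^ t ≤ (19 / 10 : ℝ) ^ (s - 2) :=
      pow_le_pow_right₀ (by norm_num) h3
    have h5 : (19 / 10 : ℝ) ^ (s - 2) ≤ (2 : ℝ) ^ (s - 2) :=
      pow_le_pow_left₀ (by norm_num) (by norm_num) _
    have h6 : (L : ℝ) < (10 : ℝ) ^ 72 * ((L : ℝ) + 1) := by
      have : (0 : ℝ) ≤ L := Nat.cast_nonneg L
      nlinarith
    linarith
  -- upper bound by minimality
  have htW : (19 / 10 : ℝ) ^ t ≤ (19 / 10) * (10 ^ 72 * ((L : ℝ) + 1)) := by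
    have h1 : t - 1 < Nat.find hex := by
      rw [← ht]
      omega
    have h2 := Nat.find_min hex h1
    push Not at h2
    have e : (19 / 10 : ℝ) ^ t = (19 / 10) ^ (t - 1) * (19 / 10) := by
      rw [← pow_succ]
      congr 1
      omega
    rw [e]
    nlinarith
  -- `t ≤ 3 s + 53`
  have hts : t ≤ 3 * s + 53 := by
    rw [ht]
    apply Nat.find_min' hex
    have h2s : (L : ℝ) ≤ 2 ^ s := by exact_mod_cast hLs
    have h2s1 : (L : ℝ) + 1 ≤ 2 ^ (s + 1) := by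
      have h1 : (1 : ℝ) ≤ 2 ^ s := one_le_pow₀ (by norm_num)
      rw [pow_succ]
      linarith
    have h3 : (2 : ℝ) ^ (s + 1) ≤ ((19 / 10 : ℝ) ^ 2) ^ (s + 1) :=
      pow_le_pow_left₀ (by norm_num) (by norm_num) (s + 1)
    have h4 : (10 : ℝ) ^ 72 ≤ (19 / 10 : ℝ) ^ (s + 51) := by
      have h100 : (10 : ℝ) ^ 27 ≤ (19 / 10 : ℝ) ^ 100 := by norm_num
      calc (10 : ℝ) ^ 72 ≤ ((10 : ℝ) ^ 27) ^ 3 := by norm_num
        _ ≤ ((19 / 10 : ℝ) ^ 100) ^ 3 := pow_le_pow_left₀ (by norm_num) h100 3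
        _ = (19 / 10 : ℝ) ^ 300 := (pow_mul (19 / 10 : ℝ) 100 3).symm
        _ ≤ _ := pow_le_pow_right₀ (by norm_num) (by omega)
    calc (10 : ℝ) ^ 72 * ((L : ℝ) + 1)
        ≤ (19 / 10 : ℝ) ^ (s + 51) * ((19 / 10 : ℝ) ^ 2) ^ (s + 1) :=
          mul_le_mul h4 (h2s1.trans h3) (by positivity) (by positivity)
      _ = (19 / 10 : ℝ) ^ (3 * s + 53) := by
          rw [← pow_mul, ← pow_add]
          congr 1
          ring
  have ht1 : 1 ≤ t := by omega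
  have htL : t ≤ 3 * L + 53 := by omega
  -- size of `2 ^ t`
  have h2t : 2 ^ t ≤ 2 ^ 59 * L ^ 3 := by
    have h2s : 2 ^ s ≤ 4 * L := by
      have e : 2 ^ s = 4 * 2 ^ (s - 2) := by
        conv_lhs => rw [show s = (s - 2) + 2 by omega, pow_add]
        ring
      omega
    calc 2 ^ t ≤ 2 ^ (3 * s + 53) := Nat.pow_le_pow_right (by norm_num) hts
      _ = (2 ^ s) ^ 3 * 2 ^ 53 := by rw [pow_add, ← pow_mul, mul_comm s 3]
      _ ≤ (4 * L) ^ 3 * 2 ^ 53 := Nat.mul_le_mul_right _ (Nat.pow_le_pow_left h2s 3)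
      _ = 2 ^ 59 * L ^ 3 := by ring
  have h2t' : 2 ^ t ≤ 2 ^ 59 * (L + 1) ^ 3 :=
    le_trans h2t (Nat.mul_le_mul_left _ (Nat.pow_le_pow_left (by omega) 3))
  -- dimension
  have hbigL := bigL3 L hL200
  have hLcube : 2 ^ 80 * (L ^ 3 * t) ≤ n := by
    have h1 : L ^ 3 * t ≤ L ^ 3 * (3 * L + 53) := Nat.mul_le_mul_left _ htL
    calc 2 ^ 80 * (L ^ 3 * t) ≤ 2 ^ 80 * (L ^ 3 * (3 * L + 53)) := Nat.mul_le_mul_left _ h1
      _ ≤ 2 ^ (L - 3) := hbigL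
      _ ≤ n := hLn
  have hX : 1 ≤ L ^ 3 * t := Nat.mul_pos (Nat.pow_pos (by omega)) (by omega)
  have htX : t ≤ L ^ 3 * t := Nat.le_mul_of_pos_left _ (Nat.pow_pos (by omega))
  have ht2 : t ≤ n := by
    generalize L ^ 3 * t = X at *
    omega
  obtain ⟨d, hdt⟩ : ∃ d, d + t = n := ⟨n - t, by omega⟩
  have hLc : (L + 1) ^ 3 ≤ 2 * L ^ 3 := by
    obtain ⟨k, rfl⟩ : ∃ k, L = k + 200 := ⟨L - 200, by omega⟩
    ring_nf
    omega
  have hdbig : 320000 * (2 ^ 59 * (L + 1) ^ 3 * t) ≤ d := by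
    have e : 320000 * (2 ^ 59 * (L + 1) ^ 3 * t) ≤ (320000 * 2 ^ 60) * (L ^ 3 * t) := by
      calc 320000 * (2 ^ 59 * (L + 1) ^ 3 * t) = (320000 * 2 ^ 59) * ((L + 1) ^ 3 * t) := by ring
        _ ≤ (320000 * 2 ^ 59) * ((2 * L ^ 3) * t) :=
            Nat.mul_le_mul_left _ (Nat.mul_le_mul_right _ hLc)
        _ = (320000 * 2 ^ 60) * (L ^ 3 * t) := by ring
    refine le_trans e ?_
    generalize L ^ 3 * t = X at *
    norm_num at hLcube ⊢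
    omega
  have hdn : d ≤ n := by omega
  -- the number of leaves
  have hN : 400000 * (L + 1) ≤ leafS t := by
    have h1 : (1 / 10 ^ 60 : ℝ) * (19 / 10) ^ t ≤ (leafS t : ℝ) := Nat.le_ceil _
    have h2 : ((400000 * (L + 1) : ℕ) : ℝ) ≤ (leafS t : ℝ) := by
      push_cast
      have h3 : (1 / 10 ^ 60 : ℝ) * (10 ^ 72 * ((L : ℝ) + 1)) ≤ (1 / 10 ^ 60 : ℝ) * (19 / 10) ^ t :=
        mul_le_mul_of_nonneg_left htspec (by positivity)
      have h4 : (1 / 10 ^ 60 : ℝ) * (10 ^ 72 * ((L : ℝ) + 1)) = 10 ^ 12 * ((L : ℝ) + 1) := by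
        ring
      nlinarith
    exact_mod_cast h2
  obtain ⟨hLt_a, hk, hm1⟩ := arith3 hdbig (by omega) ht1 h2t' hN
  refine ⟨d, t, hdt, by omega, by omega, hn1000, C1star h8n hLt_a, ?_, ?_, ?_⟩
  · exact C2star (by omega) h8n hk
  · exact C4ball ht1 hts hs50 (by omega) (by omega) hLn hsL
  · exact C3star (by omega) hdn hLn hL64 hm1 ht2000 htW hz

end Vale.Agent.Lib.P230.Star
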