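import Vale.Agent.Lib.P230.Star.Defs

/-!
# P230 star route: counting the good leaves around a shifted centre.

`leaf_count_star`: for every height `u ∈ [0, 2n)^t` there is a shift `κ ∈ {0,1}^t` such that at least
`10^(-60) * (19/10)^t` vertices `q` of the cube have `Qf ((u + 2n κ - 2n q) / (2n)) ≤ (103/400) t`.
For `j ∈ [0, 2n)` let `y i = (u i + 2n κ i - j) / (2n) ∈ [0,1)`. The mean over `j` of the mean cost with
flip probability `69/200` is `t (1/12 + 1/(24 n²) + 69/400)`, since `u i + 2n κ i - j` runs over all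
residues mod `2n`. Fix `j` with at most this mean cost, then Markov and a Young inequality of order
`21/20` as in `leaf_count`.
-/

set_option autoImplicit false

open Finset

namespace Vale.Agent.Lib.P230.Star

namespace CountAux

/-- the value of a bit -/
def bitv (b : Bool) : ℝ := if b then 1 else 0

/-- the bit nearest to `x` -/
noncomputable def rnd (x : ℝ) : Bool := decide (1 / 2 ≤ x)

/-- the weight of a bit -/
noncomputable def wt (x : ℝ) (b : Bool) : ℝ := if b = rnd x then 131 / 200 else 69 / 200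

/-- the dominating weight of a bit -/
noncomputable def sh (x : ℝ) (b : Bool) : ℝ := if b = rnd x then 641289 / 1000000 else 327123 / 1000000

/-- the mean cost at `x` -/
noncomputable def cst (x : ℝ) : ℝ := ∑ b : Bool, wt x b * (x - bitv b) ^ 2

lemma wt_pos (x : ℝ) (b : Bool) : 0 < wt x b := by
  unfold wt
  split_ifs <;> norm_num

lemma sh_pos (x : ℝ) (b : Bool) : 0 < sh x b := by
  unfold sh
  split_ifs <;> norm_num

lemma wt_sum (x : ℝ) : ∑ b : Bool, wt x b = 1 := by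
  rw [Fintype.sum_bool]
  unfold wt
  cases rnd x <;> simp <;> norm_num

lemma sh_sum (x : ℝ) : ∑ b : Bool, sh x b = 968412 / 1000000 := by
  rw [Fintype.sum_bool]
  unfold sh
  cases rnd x <;> simp <;> norm_num

lemma wt_pow_le (x : ℝ) (b : Bool) : wt x b ^ 21 ≤ sh x b ^ 20 := by
  unfold wt sh
  split_ifs <;> norm_num

/-- Young: `x²¹ ≤ y²⁰` gives `x ≤ (20/21) y / ζ + (1/21) ζ²⁰`. -/
lemma young {x y ζ : ℝ} (hx : 0 ≤ x) (hy : 0 < y) (hζ : 0 < ζ) (h : x ^ 21 ≤ y ^ 20) :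
    x ≤ (20 / 21) * (y / ζ) + (1 / 21) * ζ ^ 20 := by
  set A := y / ζ with hA
  set B := ζ ^ 20 with hB
  have hA0 : 0 < A := by positivity
  have hB0 : 0 < B := by positivity
  have e : A ^ 20 * B = y ^ 20 := by
    rw [hA, hB]
    field_simp
  have key : A ^ 20 * B ≤ ((20 / 21) * A + (1 / 21) * B) ^ 21 := by
    set u : ℝ := (B - A) / (21 * A) with hu
    have hu1 : -2 ≤ u := by
      rw [hu, le_div_iff₀ (by positivity)]
      nlinarith
    have hb := one_add_mul_le_pow hu1 21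
    have e1 : (20 / 21) * A + (1 / 21) * B = A * (1 + u) := by
      rw [hu]
      field_simp
      ring
    have e2 : 1 + ((21 : ℕ) : ℝ) * u = B / A := by
      rw [hu]
      push_cast
      field_simp
      ring
    rw [e2] at hb
    rw [e1, mul_pow]
    calc A ^ 20 * B = A ^ 21 * (B / A) := by
          field_simp
      _ ≤ A ^ 21 * (1 + u) ^ 21 := mul_le_mul_of_nonneg_left hb (by positivity)
  have h4 : x ^ 21 ≤ ((20 / 21) * A + (1 / 21) * B) ^ 21 := by
    rw [← e] at h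
    exact h.trans key
  exact (pow_le_pow_iff_left₀ hx (by positivity) (by norm_num)).1 h4

/-- Markov plus Young at a centre with small total mean cost. -/
theorem count_of_mean {t : ℕ} (ht : 0 < t) (a : Fin t → ℝ)
    (hm : ∑ i, cst (a i) ≤ (25584 / 100000) * (t : ℝ)) :
    (1 / 10 ^ 60 : ℝ) * (19 / 10 : ℝ) ^ t ≤
      ((univ.filter fun q : Fin t → Bool =>
        ∑ i, (a i - bitv (q i)) ^ 2 ≤ (513 / 2000) * (t : ℝ)).card : ℝ) := by
  classical
  set good : Finset (Fin t → Bool) := univ.filter fun q : Fin t → Bool =>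
    ∑ i, (a i - bitv (q i)) ^ 2 ≤ (513 / 2000) * (t : ℝ) with hgood
  let w : (Fin t → Bool) → ℝ := fun q => ∏ i, wt (a i) (q i)
  let s : (Fin t → Bool) → ℝ := fun q => ∏ i, sh (a i) (q i)
  let cost : (Fin t → Bool) → ℝ := fun q => ∑ i, (a i - bitv (q i)) ^ 2
  have hw0 : ∀ q, 0 < w q := fun q => Finset.prod_pos fun i _ => wt_pos _ _
  have hs0 : ∀ q, 0 < s q := fun q => Finset.prod_pos fun i _ => sh_pos _ _
  have hc0 : ∀ q, 0 ≤ cost q := fun q => Finset.sum_nonneg fun i _ => sq_nonneg _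
  -- sums over the cube
  have prod_sum : ∀ f : Fin t → Bool → ℝ,
      ∑ q : Fin t → Bool, ∏ i, f i (q i) = ∏ i, ∑ b : Bool, f i b := by
    intro f
    rw [Finset.prod_univ_sum, Fintype.piFinset_univ]
  have hw1 : ∑ q, w q = 1 := by
    show ∑ q : Fin t → Bool, ∏ i, wt (a i) (q i) = 1
    rw [prod_sum (fun i b => wt (a i) b)]
    exact Finset.prod_eq_one fun i _ => wt_sum _
  have hs1 : ∑ q, s q = (968412 / 1000000 : ℝ) ^ t := by
    show ∑ q : Fin t → Bool, ∏ i, sh (a i) (q i) = _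
    rw [prod_sum (fun i b => sh (a i) b)]
    simp only [sh_sum, Finset.prod_const, Finset.card_univ, Fintype.card_fin]
  -- the mean of the cost
  have hmean : ∑ q, w q * cost q ≤ (25584 / 100000) * (t : ℝ) := by
    have h1 : ∀ j : Fin t, ∑ q, w q * (a j - bitv (q j)) ^ 2 = cst (a j) := by
      intro j
      have e : ∀ q : Fin t → Bool, w q * (a j - bitv (q j)) ^ 2 =
          ∏ i, (wt (a i) (q i) * (if i = j then (a j - bitv (q i)) ^ 2 else 1)) := by
        intro q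
        rw [Finset.prod_mul_distrib]
        congr 1
        rw [Finset.prod_ite_eq' univ j]
        simp
      simp_rw [e]
      rw [prod_sum (fun i b => wt (a i) b * (if i = j then (a j - bitv b) ^ 2 else 1))]
      rw [Finset.prod_eq_single j]
      · simp only [if_true]
        rfl
      · intro i _ hij
        simp only [if_neg hij, mul_one]
        exact wt_sum _
      · intro h
        exact absurd (Finset.mem_univ j) h
    calc ∑ q, w q * cost q = ∑ j : Fin t, ∑ q, w q * (a j - bitv (q j)) ^ 2 := by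
          simp only [cost, Finset.mul_sum]
          rw [Finset.sum_comm]
      _ = ∑ j : Fin t, cst (a j) := Finset.sum_congr rfl fun j _ => h1 j
      _ ≤ _ := hm
  -- the weight of the good vertices
  have hP : (1 / 400 : ℝ) ≤ ∑ q ∈ good, w q := by
    have ht0 : (0 : ℝ) < t := by exact_mod_cast ht
    have hsplit : ∑ q ∈ good, w q + ∑ q ∈ univ \ good, w q = 1 := by
      rw [← hw1]
      exact Finset.sum_add_sum_compl good w
    have hbad : (∑ q ∈ univ \ good, w q) * ((513 / 2000) * (t : ℝ)) ≤ (25584 / 100000) * (t : ℝ) := by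
      rw [Finset.sum_mul]
      calc ∑ q ∈ univ \ good, w q * ((513 / 2000) * (t : ℝ))
          ≤ ∑ q ∈ univ \ good, w q * cost q := by
            refine Finset.sum_le_sum fun q hq => ?_
            refine mul_le_mul_of_nonneg_left ?_ (hw0 q).le
            have hq' : q ∉ good := (Finset.mem_sdiff.1 hq).2
            rw [hgood, Finset.mem_filter] at hq'
            push Not at hq'
            exact (hq' (Finset.mem_univ q)).le
        _ ≤ ∑ q, w q * cost q := by
            refine Finset.sum_le_sum_of_subset_of_nonneg (Finset.subset_univ _) ?_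
            intro q _ _
            exact mul_nonneg (hw0 q).le (hc0 q)
        _ ≤ _ := hmean
    have hbad2 : ∑ q ∈ univ \ good, w q ≤ 399 / 400 := by
      have e : (∑ q ∈ univ \ good, w q) * ((513 / 2000) * (t : ℝ)) ≤ (399 / 400) * ((513 / 2000) * (t : ℝ)) := by
        calc _ ≤ (25584 / 100000) * (t : ℝ) := hbad
          _ ≤ _ := by nlinarith
      exact le_of_mul_le_mul_right e (by positivity)
    linarith
  -- the count
  set N : ℝ := (good.card : ℝ) with hN
  set S : ℝ := (968412 / 1000000 : ℝ) ^ t with hS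
  have hSpos : 0 < S := by positivity
  set P : ℝ := 1 / 400 with hPdef
  have hPpos : 0 < P := by rw [hPdef]; norm_num
  set ζ : ℝ := 40 * S / (21 * P) with hζ
  have hζ0 : 0 < ζ := by positivity
  have hpt : ∀ q, w q ≤ (20 / 21) * (s q / ζ) + (1 / 21) * ζ ^ 20 := by
    intro q
    refine young (hw0 q).le (hs0 q) hζ0 ?_
    show (∏ i, wt (a i) (q i)) ^ 21 ≤ (∏ i, sh (a i) (q i)) ^ 20
    rw [← Finset.prod_pow, ← Finset.prod_pow]
    exact Finset.prod_le_prod (fun i _ => by have := wt_pos (a i) (q i); positivity)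
      (fun i _ => wt_pow_le _ _)
  have hup : ∑ q ∈ good, w q ≤ (20 / 21) * (S / ζ) + (1 / 21) * ζ ^ 20 * N := by
    calc ∑ q ∈ good, w q ≤ ∑ q ∈ good, ((20 / 21) * (s q / ζ) + (1 / 21) * ζ ^ 20) :=
          Finset.sum_le_sum fun q _ => hpt q
      _ = (20 / 21) * ((∑ q ∈ good, s q) / ζ) + (1 / 21) * ζ ^ 20 * N := by
          rw [Finset.sum_add_distrib, ← Finset.mul_sum, ← Finset.sum_div, Finset.sum_const,
            nsmul_eq_mul]
          ring
      _ ≤ (20 / 21) * (S / ζ) + (1 / 21) * ζ ^ 20 * N := by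
          have h1 : ∑ q ∈ good, s q ≤ S := by
            rw [← hs1]
            exact Finset.sum_le_sum_of_subset_of_nonneg (Finset.subset_univ _)
              (fun q _ _ => (hs0 q).le)
          have h2 : (∑ q ∈ good, s q) / ζ ≤ S / ζ := div_le_div_of_nonneg_right h1 hζ0.le
          linarith
  have e1 : (20 / 21) * (S / ζ) = P / 2 := by
    rw [hζ]
    field_simp
    ring
  have h2 : P / 2 ≤ (1 / 21) * ζ ^ 20 * N := by
    have := hP.trans hup
    rw [e1] at this
    linarith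
  have h3 : (21 / 2) * (21 / 40) ^ 20 * P ^ 21 ≤ S ^ 20 * N := by
    have e2 : (1 / 21) * ζ ^ 20 * N = (1 / 21) * ((40 / 21) ^ 20 * (S ^ 20 / P ^ 20)) * N := by
      rw [hζ]
      field_simp
    rw [e2] at h2
    have hP3 : 0 < P ^ 20 := by positivity
    have h4 : P / 2 * P ^ 20 ≤ (1 / 21) * ((40 / 21) ^ 20 * (S ^ 20 / P ^ 20)) * N * P ^ 20 :=
      mul_le_mul_of_nonneg_right h2 hP3.le
    have e3 : (1 / 21) * ((40 / 21) ^ 20 * (S ^ 20 / P ^ 20)) * N * P ^ 20 =
        (1 / 21) * (40 / 21) ^ 20 * (S ^ 20 * N) := by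
      field_simp
    rw [e3] at h4
    have h5 : (21 / 40 : ℝ) ^ 20 * (40 / 21) ^ 20 = 1 := by
      rw [← mul_pow]
      norm_num
    have h7 := mul_le_mul_of_nonneg_left h4 (by positivity : (0 : ℝ) ≤ 21 * (21 / 40 : ℝ) ^ 20)
    have e4 : 21 * (21 / 40 : ℝ) ^ 20 * ((1 / 21) * (40 / 21) ^ 20 * (S ^ 20 * N)) =
        ((21 / 40 : ℝ) ^ 20 * (40 / 21) ^ 20) * (S ^ 20 * N) := by ring
    rw [e4, h5, one_mul] at h7
    calc (21 / 2) * (21 / 40) ^ 20 * P ^ 21 = 21 * (21 / 40 : ℝ) ^ 20 * (P / 2 * P ^ 20) := by ring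
      _ ≤ _ := h7
  -- numerics
  have h5 : (1 / 10 ^ 60 : ℝ) ≤ (21 / 2) * (21 / 40) ^ 20 * P ^ 21 := by
    rw [hPdef]
    norm_num
  have h6 : (19 / 10 : ℝ) ^ t * S ^ 20 ≤ 1 := by
    have e4 : (19 / 10 : ℝ) ^ t * S ^ 20 = ((19 / 10 : ℝ) * (968412 / 1000000) ^ 20) ^ t := by
      rw [hS, mul_pow, ← pow_mul, ← pow_mul, mul_comm t 20]
    rw [e4]
    exact pow_le_one₀ (by norm_num) (by norm_num)
  have hN0 : 0 ≤ N := Nat.cast_nonneg _
  have hg : (0 : ℝ) < (19 / 10 : ℝ) ^ t := by positivity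
  calc (1 / 10 ^ 60 : ℝ) * (19 / 10 : ℝ) ^ t
      ≤ ((21 / 2) * (21 / 40) ^ 20 * P ^ 21) * (19 / 10 : ℝ) ^ t := mul_le_mul_of_nonneg_right h5 hg.le
    _ ≤ (S ^ 20 * N) * (19 / 10 : ℝ) ^ t := mul_le_mul_of_nonneg_right h3 hg.le
    _ = ((19 / 10 : ℝ) ^ t * S ^ 20) * N := by ring
    _ ≤ 1 * N := mul_le_mul_of_nonneg_right h6 hN0
    _ = N := one_mul _

/-- the mean cost below `1/2` -/
lemma cst_low {x : ℝ} (h : x < 1 / 2) :
    cst x = (131 / 200) * x ^ 2 + (69 / 200) * (x - 1) ^ 2 := by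
  have hr : rnd x = false := decide_eq_false (not_le.2 h)
  unfold cst
  rw [Fintype.sum_bool]
  simp only [wt, bitv, hr]
  norm_num
  try ring

/-- the mean cost above `1/2` -/
lemma cst_high {x : ℝ} (h : 1 / 2 ≤ x) :
    cst x = (131 / 200) * (x - 1) ^ 2 + (69 / 200) * x ^ 2 := by
  have hr : rnd x = true := decide_eq_true h
  unfold cst
  rw [Fintype.sum_bool]
  simp only [wt, bitv, hr]
  norm_num
  try ring

lemma sum_id (n : ℕ) : ∑ s ∈ range n, (s : ℝ) = (n : ℝ) * ((n : ℝ) - 1) / 2 := by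
  induction n with
  | zero => simp
  | succ k ih =>
    rw [Finset.sum_range_succ, ih]
    push_cast
    ring

lemma sum_sq (n : ℕ) : ∑ s ∈ range n, (s : ℝ) ^ 2 = ((n : ℝ) - 1) * (n : ℝ) * (2 * (n : ℝ) - 1) / 6 := by
  induction n with
  | zero => simp
  | succ k ih =>
    rw [Finset.sum_range_succ, ih]
    push_cast
    ring

/-- the total mean cost over all residues -/
lemma sum_cst {n : ℕ} (hn : 0 < n) :
    ∑ r ∈ range (2 * n), cst ((r : ℝ) / ((2 * n : ℕ) : ℝ)) =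
      (2 * (n : ℝ) ^ 2 + 1) / (12 * (n : ℝ)) + (69 / 200) * (n : ℝ) := by
  have hn0 : (0 : ℝ) < n := by exact_mod_cast hn
  have hc : ((2 * n : ℕ) : ℝ) = 2 * (n : ℝ) := by push_cast; ring
  rw [hc]
  have e2 : 2 * n = n + n := by ring
  rw [e2, Finset.sum_range_add, ← Finset.sum_add_distrib]
  have key : ∀ s ∈ range n, cst ((s : ℝ) / (2 * (n : ℝ))) + cst (((n + s : ℕ) : ℝ) / (2 * (n : ℝ))) =
      ((n : ℝ) ^ 2 - 2 * (n : ℝ) * (s : ℝ) + 2 * (s : ℝ) ^ 2 + (69 / 50) * (n : ℝ) ^ 2) / (4 * (n : ℝ) ^ 2) := by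
    intro s hs
    have hs' : (s : ℝ) < n := by exact_mod_cast mem_range.1 hs
    have h1 : (s : ℝ) / (2 * (n : ℝ)) < 1 / 2 := by
      rw [div_lt_iff₀ (by positivity)]
      linarith
    have h2 : 1 / 2 ≤ ((n + s : ℕ) : ℝ) / (2 * (n : ℝ)) := by
      push_cast
      rw [le_div_iff₀ (by positivity)]
      have : (0 : ℝ) ≤ s := Nat.cast_nonneg s
      linarith
    rw [cst_low h1, cst_high h2]
    push_cast
    field_simp
    ring
  rw [Finset.sum_congr rfl key, ← Finset.sum_div]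
  have e3 : ∑ s ∈ range n, ((n : ℝ) ^ 2 - 2 * (n : ℝ) * (s : ℝ) + 2 * (s : ℝ) ^ 2 + (69 / 50) * (n : ℝ) ^ 2) =
      (2 * (n : ℝ) ^ 3 + n) / 3 + (69 / 50) * (n : ℝ) ^ 3 := by
    have h : ∀ s ∈ range n, ((n : ℝ) ^ 2 - 2 * (n : ℝ) * (s : ℝ) + 2 * (s : ℝ) ^ 2 + (69 / 50) * (n : ℝ) ^ 2) =
        ((n : ℝ) ^ 2 + (69 / 50) * (n : ℝ) ^ 2) - 2 * (n : ℝ) * (s : ℝ) + 2 * (s : ℝ) ^ 2 := by
      intros
      ring
    rw [Finset.sum_congr rfl h, Finset.sum_add_distrib, Finset.sum_sub_distrib, Finset.sum_const,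
      ← Finset.mul_sum, ← Finset.mul_sum, sum_id, sum_sq, card_range, nsmul_eq_mul]
    ring
  rw [e3]
  field_simp
  ring

/-- reflection of residues -/
lemma sum_reflect {N v : ℕ} (hv : v < N) (f : ℕ → ℝ) :
    ∑ j ∈ range N, f (if j ≤ v then v - j else v + N - j) = ∑ r ∈ range N, f r := by
  refine Finset.sum_nbij' (fun j => if j ≤ v then v - j else v + N - j)
    (fun j => if j ≤ v then v - j else v + N - j) ?_ ?_ ?_ ?_ ?_
  · intro j hj
    rw [mem_range] at *
    split_ifs <;> omega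
  · intro j hj
    rw [mem_range] at *
    split_ifs <;> omega
  · intro j hj
    rw [mem_range] at hj
    split_ifs <;> omega
  · intro j hj
    rw [mem_range] at hj
    split_ifs <;> omega
  · intro j _
    rfl

/-- a centre with small total mean cost -/
theorem exists_center {t n : ℕ} (hn : 1000 ≤ n) (v : Fin t → ℕ) (hv : ∀ i, v i < 2 * n) :
    ∃ j, j < 2 * n ∧
      ∑ i, cst ((((if j ≤ v i then v i - j else v i + 2 * n - j : ℕ)) : ℝ) / ((2 * n : ℕ) : ℝ)) ≤
        (25584 / 100000) * (t : ℝ) := by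
  have hn0 : 0 < n := by omega
  have hn1 : (1000 : ℝ) ≤ n := by exact_mod_cast hn
  have hs : (range (2 * n)).Nonempty := ⟨0, mem_range.2 (by omega)⟩
  have hT : (2 * (n : ℝ) ^ 2 + 1) / (12 * (n : ℝ)) + (69 / 200) * (n : ℝ) ≤
      (25584 / 100000) * (2 * (n : ℝ)) := by
    have hnp : (0 : ℝ) < n := by linarith
    have h1 : (2 * (n : ℝ) ^ 2 + 1) / (12 * (n : ℝ)) ≤ (16668 / 100000) * (n : ℝ) := by
      rw [div_le_iff₀ (by positivity)]
      nlinarith
    linarith
  have hsum : ∑ j ∈ range (2 * n), ∑ i, cst (((if j ≤ v i then v i - j else v i + 2 * n - j : ℕ) : ℝ) / ((2 * n : ℕ) : ℝ))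
      ≤ ∑ _j ∈ range (2 * n), (25584 / 100000) * (t : ℝ) := by
    rw [Finset.sum_comm]
    have h : ∀ i ∈ (univ : Finset (Fin t)),
        ∑ j ∈ range (2 * n), cst (((if j ≤ v i then v i - j else v i + 2 * n - j : ℕ) : ℝ) / ((2 * n : ℕ) : ℝ)) =
          (2 * (n : ℝ) ^ 2 + 1) / (12 * (n : ℝ)) + (69 / 200) * (n : ℝ) := by
      intro i _
      rw [← sum_cst hn0]
      exact sum_reflect (hv i) (fun r => cst ((r : ℝ) / ((2 * n : ℕ) : ℝ)))
    rw [Finset.sum_congr rfl h]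
    simp only [Finset.sum_const, Finset.card_univ, Fintype.card_fin, card_range, nsmul_eq_mul]
    push_cast
    have ht0 : (0 : ℝ) ≤ t := Nat.cast_nonneg t
    nlinarith [mul_le_mul_of_nonneg_left hT ht0]
  obtain ⟨j, hj, hj2⟩ := Finset.exists_le_of_sum_le hs hsum
  exact ⟨j, mem_range.1 hj, hj2⟩

/-- `Qf` is at most the shifted sum of squares. -/
lemma Qf_le {t : ℕ} (x : Fin t → ℝ) (μ : ℝ) : Qf x ≤ μ ^ 2 + ∑ i, (x i - μ) ^ 2 := by
  have h : ∑ i, (x i - μ) ^ 2 = ∑ i, x i ^ 2 - 2 * μ * ∑ i, x i + (t : ℝ) * μ ^ 2 := by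
    have e : ∀ i, (x i - μ) ^ 2 = x i ^ 2 - 2 * μ * x i + μ ^ 2 := fun i => by ring
    simp_rw [e]
    rw [Finset.sum_add_distrib, Finset.sum_sub_distrib, ← Finset.mul_sum, Finset.sum_const,
      Finset.card_univ, Fintype.card_fin, nsmul_eq_mul]
  unfold Qf
  rw [h]
  set s := ∑ i, x i
  have ht : (0 : ℝ) < (t : ℝ) + 1 := by positivity
  have h2 : 2 * μ * s - ((t : ℝ) + 1) * μ ^ 2 ≤ s ^ 2 / ((t : ℝ) + 1) := by
    rw [le_div_iff₀ ht]
    nlinarith [sq_nonneg (s - ((t : ℝ) + 1) * μ)]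
  nlinarith

end CountAux

open CountAux

/-- Good leaves around a shifted centre. -/
theorem leaf_count_star {t n : ℕ} (ht : 1000 ≤ t) (hn : 1000 ≤ n) (u : Fin t → ℤ)
    (hu : ∀ i, 0 ≤ u i ∧ u i < ((2 * n : ℕ) : ℤ)) :
    ∃ κ : Fin t → ℤ, (∀ i, κ i = 0 ∨ κ i = 1) ∧
      leafS t ≤ (univ.filter fun q : Fin t → Bool =>
        Qf (fun i => (((u i + κ i * ((2 * n : ℕ) : ℤ) - (if q i then ((2 * n : ℕ) : ℤ) else 0) : ℤ)) : ℝ) /
          ((2 * n : ℕ) : ℝ)) ≤ (103 / 400) * (t : ℝ)).card := by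
  classical
  obtain ⟨v, hv⟩ : ∃ v : Fin t → ℕ, ∀ i, u i = (v i : ℤ) :=
    ⟨fun i => (u i).toNat, fun i => (Int.toNat_of_nonneg (hu i).1).symm⟩
  have hv' : ∀ i, v i < 2 * n := by
    intro i
    have h := (hu i).2
    rw [hv i] at h
    exact_mod_cast h
  obtain ⟨j, hj, hjm⟩ := exists_center hn v hv'
  set a : Fin t → ℝ := fun i => ((if j ≤ v i then v i - j else v i + 2 * n - j : ℕ) : ℝ) / ((2 * n : ℕ) : ℝ)
    with ha
  refine ⟨fun i => if j ≤ v i then 0 else 1, fun i => by by_cases h : j ≤ v i <;> simp [h], ?_⟩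
  have hcount := count_of_mean (by omega) a hjm
  unfold leafS
  apply Nat.ceil_le.2
  refine hcount.trans ?_
  have hN0 : (0 : ℝ) < ((2 * n : ℕ) : ℝ) := by
    have : 0 < 2 * n := by omega
    exact_mod_cast this
  have ht1 : (1000 : ℝ) ≤ t := by exact_mod_cast ht
  apply Nat.cast_le.2
  apply Finset.card_le_card
  intro q hq
  rw [mem_filter] at hq ⊢
  refine ⟨mem_univ _, ?_⟩
  set μ : ℝ := (j : ℝ) / ((2 * n : ℕ) : ℝ) with hμ
  set x : Fin t → ℝ := fun i =>
    (((u i + (if j ≤ v i then 0 else 1) * ((2 * n : ℕ) : ℤ) - (if q i then ((2 * n : ℕ) : ℤ) else 0) : ℤ)) : ℝ) /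
      ((2 * n : ℕ) : ℝ) with hx
  have hxa : ∀ i, x i - μ = a i - bitv (q i) := by
    intro i
    simp only [hx, ha, hμ, hv i]
    have hne : ((2 * n : ℕ) : ℝ) ≠ 0 := hN0.ne'
    by_cases h : j ≤ v i
    · rw [if_pos h, if_pos h, Nat.cast_sub h]
      cases q i <;> simp only [bitv, if_true, if_false, Bool.false_eq_true] <;> push_cast <;>
        field_simp <;> ring
    · have h' : j ≤ v i + 2 * n := by omega
      rw [if_neg h, if_neg h, Nat.cast_sub h']
      cases q i <;> simp only [bitv, if_true, if_false, Bool.false_eq_true] <;> push_cast <;>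
        field_simp <;> ring
  have hμ1 : μ ^ 2 ≤ 1 := by
    have h0 : 0 ≤ μ := by positivity
    have h1 : μ ≤ 1 := by
      rw [hμ, div_le_one hN0]
      exact_mod_cast hj.le
    nlinarith
  calc Qf x ≤ μ ^ 2 + ∑ i, (x i - μ) ^ 2 := Qf_le x μ
    _ = μ ^ 2 + ∑ i, (a i - bitv (q i)) ^ 2 := by simp_rw [hxa]
    _ ≤ 1 + (513 / 2000) * (t : ℝ) := add_le_add hμ1 hq.2
    _ ≤ (103 / 400) * (t : ℝ) := by linarith

end Vale.Agent.Lib.P230.Star
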