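import Vale.Agent.Lib.P230.Star.Defs
import Vale.Agent.Lib.P230.Star.Erosion3
import Vale.Agent.Lib.P230.Star.StarCount
import Vale.Agent.Lib.P230.Lin.Lattice3

/-!
# P230 star route: the lattice for the window `Qf x ≤ (13/50) t`.

Copy of `Lin.lattice_data3` and `Ball.lattice_data2` with the family of bodies indexed by the heights
`u ∈ hbox t (2 N)`, `N = 2 n`, with `Qf (u / N) ≤ (103/400) t`, the count `leaf_count_star` and the
covering step `abstract_cover3`.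
-/

set_option autoImplicit false
set_option linter.unusedSectionVars false
set_option linter.unusedSimpArgs false
set_option linter.unusedVariables false

open MeasureTheory Finset
open scoped ENNReal Matrix Pointwise
open Vale.Agent.Lib.P230.Ball Vale.Agent.Lib.P230.Lin

namespace Vale.Agent.Lib.P230.Star

variable {d t : ℕ}

lemma Qf_nonneg {t : ℕ} (x : Fin t → ℝ) : 0 ≤ Qf x := by
  unfold Qf
  have h1 : (∑ i, x i) ^ 2 ≤ (t : ℝ) * ∑ i, x i ^ 2 := by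
    have := sq_sum_le_card_mul_sum_sq (s := (univ : Finset (Fin t))) (f := x)
    simpa using this
  have ht : (0 : ℝ) < (t : ℝ) + 1 := by positivity
  have h2 : 0 ≤ ∑ i, x i ^ 2 := Finset.sum_nonneg fun i _ => sq_nonneg _
  have h3 : (∑ i, x i) ^ 2 / ((t : ℝ) + 1) ≤ ∑ i, x i ^ 2 := by
    rw [div_le_iff₀ ht]
    nlinarith
  linarith

lemma Qf_le_sum {t : ℕ} (x : Fin t → ℝ) : Qf x ≤ ∑ i, x i ^ 2 := by
  unfold Qf
  have ht : (0 : ℝ) < (t : ℝ) + 1 := by positivity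
  have : 0 ≤ (∑ i, x i) ^ 2 / ((t : ℝ) + 1) := by positivity
  linarith

lemma Qf_smul {t : ℕ} (c : ℝ) (x : Fin t → ℝ) : Qf (c • x) = c ^ 2 * Qf x := by
  unfold Qf
  simp only [Pi.smul_apply, smul_eq_mul, mul_pow, ← Finset.mul_sum]
  ring

/-- The good heights. -/
noncomputable def gHeightsS (t n : ℕ) : Finset (Fin t → ℤ) :=
  open Classical in
  (hbox t (2 * (2 * n))).filter fun u => Qf (fun i => (u i : ℝ) / ((2 * n : ℕ) : ℝ)) ≤ (103 / 400) * (t : ℝ)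

lemma mem_gHeightsS {t n : ℕ} (u : Fin t → ℤ) : u ∈ gHeightsS t n ↔
    (∀ i, -((2 * (2 * n) : ℕ) : ℤ) ≤ u i ∧ u i < ((2 * (2 * n) : ℕ) : ℤ)) ∧
      Qf (fun i => (u i : ℝ) / ((2 * n : ℕ) : ℝ)) ≤ (103 / 400) * (t : ℝ) := by
  classical
  unfold gHeightsS
  rw [Finset.mem_filter, mem_hbox]

/-- The product of the void fractions along the cube. -/
lemma prod_sigma_le_star {t n : ℕ} (hn : 0 < n) (ε : ℝ) (hε0 : 0 < ε) (hε1 : ε ≤ 1) (u κ : Fin t → ℤ)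
    (hu : ∀ i, 0 ≤ u i ∧ u i < ((2 * n : ℕ) : ℤ)) (hκ : ∀ i, κ i = 0 ∨ κ i = 1)
    (σ : (Fin t → ℤ) → ℝ)
    (hσ : ∀ w, σ w = open Classical in if w ∈ gHeightsS t n then ε else 1)
    (hc : leafS t ≤ (univ.filter fun q : Fin t → Bool =>
        Qf (fun i => (((u i + κ i * ((2 * n : ℕ) : ℤ) - (if q i then ((2 * n : ℕ) : ℤ) else 0) : ℤ)) : ℝ) /
          ((2 * n : ℕ) : ℝ)) ≤ (103 / 400) * (t : ℝ)).card) :
    ∏ q : Fin t → Bool, σ ((fun i => u i + κ i * ((2 * n : ℕ) : ℤ)) - qshift ((2 * n : ℕ) : ℤ) q) ≤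
      ε ^ leafS t := by
  classical
  have h1 : ∏ q : Fin t → Bool, σ ((fun i => u i + κ i * ((2 * n : ℕ) : ℤ)) - qshift ((2 * n : ℕ) : ℤ) q) =
      ε ^ ((univ : Finset (Fin t → Bool)).filter fun q =>
        (fun i => u i + κ i * ((2 * n : ℕ) : ℤ)) - qshift ((2 * n : ℕ) : ℤ) q ∈ gHeightsS t n).card := by
    simp_rw [hσ]
    rw [Finset.prod_ite]
    simp
  rw [h1]
  refine pow_le_pow_of_le_one hε0.le hε1 (hc.trans (Finset.card_le_card ?_))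
  intro q hq
  rw [Finset.mem_filter] at hq ⊢
  refine ⟨hq.1, ?_⟩
  rw [mem_gHeightsS]
  have hN : (0 : ℤ) < ((2 * n : ℕ) : ℤ) := by
    have : 0 < 2 * n := by omega
    exact_mod_cast this
  constructor
  · intro i
    have h2 := hu i
    have e : ((2 * (2 * n) : ℕ) : ℤ) = 2 * ((2 * n : ℕ) : ℤ) := by
      push_cast
      ring
    rw [e]
    simp only [Pi.sub_apply, qshift]
    rcases hκ i with h4 | h4 <;> by_cases hqi : q i = true <;> simp only [h4, hqi, if_true, if_false, Bool.false_eq_true, zero_mul, one_mul, add_zero] <;> omega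
  · have e : (fun i => ((((fun i => u i + κ i * ((2 * n : ℕ) : ℤ)) - qshift ((2 * n : ℕ) : ℤ) q) i : ℤ) : ℝ) /
        ((2 * n : ℕ) : ℝ)) = (fun i => (((u i + κ i * ((2 * n : ℕ) : ℤ) -
          (if q i then ((2 * n : ℕ) : ℤ) else 0) : ℤ)) : ℝ) / ((2 * n : ℕ) : ℝ)) := by
      funext i
      simp only [Pi.sub_apply, qshift]
    rw [e]
    exact hq.2

/-- Existence of the lattice in the window `Qf x ≤ (13/50) t`. -/
theorem lattice_data_star : ∃ d₀ : ℕ, ∀ d ≥ d₀, ∀ t n : ℕ, n = d + t → 1000 ≤ n → 1000 ≤ t →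
    ((8 * (n : ℝ)) ^ t ≤ 2 ^ (mstar2 d / 16)) →
    (((8 * (n : ℝ)) ^ t) ^ (2 ^ t - 1) * ((1 / 2 : ℝ) ^ (mstar2 d / 4)) ^ (leafS t) <
      (1 / 2) * (1 / (4 * (n : ℝ))) ^ d) →
    ∀ K' : Set ((Fin d → ℝ) × (Fin t → ℝ)), Convex ℝ K' → IsCompact K' → ∀ V₀ : ℝ, 0 < V₀ →
    (∀ x : Fin t → ℝ, Qf x ≤ (13 / 50) * (t : ℝ) →
      ENNReal.ofReal V₀ ≤ volume {y : Fin d → ℝ | (y, x) ∈ K'}) →
    ∃ (B : Matrix (Fin d ⊕ Fin t) (Fin d ⊕ Fin t) ℤ) (R : ℕ), 0 < R ∧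
      (∀ x : (Fin d → ℝ) × (Fin t → ℝ), ∃ k : Fin d ⊕ Fin t → ℤ,
        (x.1 - (fun i => ((B.mulVec k (Sum.inl i) : ℤ) : ℝ) / R),
          x.2 - (fun i => ((B.mulVec k (Sum.inr i) : ℤ) : ℝ))) ∈ K') ∧
      (R : ℝ) ^ d * ((1 - 2 / (n : ℝ)) ^ d * V₀) / 2 ^ (efin2 d + 2) ≤ |(B.det : ℝ)| := by
  classical
  obtain ⟨d₁, hd₁⟩ := base_hash2
  obtain ⟨d₂, hd₂⟩ := schedule_big
  refine ⟨max d₁ d₂, fun d hd t n hn hn8 ht1000 hnum1 hnum2 K' hK'c hK' V₀ hV₀ hwin => ?_⟩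
  have hBig := hd₂ d (le_trans (le_max_right _ _) hd)
  have hbase := hd₁ d (le_trans (le_max_left _ _) hd)
  have hdge : 2 ≤ d := hBig.1
  have hd0 : 0 < d := by omega
  have hn0 : 0 < n := by omega
  have hnR : (1000 : ℝ) ≤ n := by exact_mod_cast hn8
  have hnR0 : (0 : ℝ) < n := by linarith
  set δ : ℝ := 1 / (n : ℝ) with hδ
  have hδ0 : 0 < δ := by positivity
  have hδk : δ ≤ 1 / 1000 := by
    rw [hδ]
    apply one_div_le_one_div_of_le (by norm_num) hnR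
  have hδ8 : δ ≤ 1 / 8 := by linarith
  have hδ1 : δ ≤ 1 / 4 := by linarith
  have hκ : 1 - 2 * δ = 1 - 2 / (n : ℝ) := by
    rw [hδ]
    ring
  have hκ0 : 0 < 1 - 2 * δ := by linarith
  have hκ1 : 1 - 2 * δ ≤ 1 := by linarith
  have hzero : Qf (0 : Fin t → ℝ) ≤ (13 / 50) * (t : ℝ) := by
    have h0 : Qf (0 : Fin t → ℝ) = 0 := by
      simp [Qf]
    rw [h0]
    positivity
  obtain ⟨cy, C₁, C₀, hcy, hC₁c, hC₁K, hC₀c, hC₀K, hsym, hC, hadd, hv₁, hv₀, r, hr, hball⟩ :=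
    eroder2 hd0 K' hK'c hK' V₀ hV₀ (hwin 0 hzero) δ hδ0
  -- the family of bodies
  let U : Type := ↥(gHeightsS t n)
  have hdil : ∀ u : U, ENNReal.ofReal V₀ ≤ volume {y : Fin d → ℝ |
      (y, (1 - 2 * δ)⁻¹ • (fun i => (u.1 i : ℝ) / ((2 * n : ℕ) : ℝ))) ∈ K'} := by
    intro u
    apply hwin
    have h1 := ((mem_gHeightsS u.1).mp u.2).2
    rw [Qf_smul]
    have ht0 : (0 : ℝ) ≤ t := Nat.cast_nonneg t
    exact aux_dil δ hδ0 hδk _ _ ht0 (Qf_nonneg _) h1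
  choose B' hB'c hB'K hB'v hB'mem using fun u : U =>
    body_family2 hd0 K' hK'c hK' V₀ hV₀ δ hδ0 hδ1 cy (fun i => (u.1 i : ℝ) / ((2 * n : ℕ) : ℝ)) (hdil u)
  set V₁ : ℝ := (1 - 2 * δ) ^ d * V₀ with hV₁def
  have hV₁ : 0 < V₁ := by positivity
  have hB'v' : ∀ u, (volume (B' u)).toReal = V₁ := by
    intro u
    rw [hB'v u, ENNReal.toReal_ofReal hV₁.le]
  choose! W₀fun hW₀fun using hbase
  have hv₁' : (volume C₁).toReal = (δ / 4) ^ d * V₀ := by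
    rw [hv₁, ENNReal.toReal_ofReal (by positivity)]
  have hv₀' : (volume C₀).toReal = (δ / 2) ^ d * V₀ := by
    rw [hv₀, ENNReal.toReal_ofReal (by positivity)]
  obtain ⟨θ, R, W, Q, P, hθ, hR, hP, hW, hQ1, hQ2, hgood, hP1, hP2, hY1c, hY0c, hRr, hPdvd⟩ :=
    select_R hdge B' V₁ hV₁ hB'c hB'K hB'v' C₁ C₀ hC₁c hC₁K hC₀c hC₀K ((δ / 4) ^ d * V₀)
      ((δ / 2) ^ d * V₀) (by positivity) (by positivity) hv₁' hv₀' (e02 d) r hr W₀fun
  have : Fact P.Prime := ⟨hP⟩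
  have hR0 : (0 : ℝ) < R := by exact_mod_cast hR
  have hRd : (0 : ℝ) < (R : ℝ) ^ d := by positivity
  have hPpos : (0 : ℝ) < P := by exact_mod_cast hP.pos
  set Y0 : Finset (Fin d → ℤ) := (lat C₀ R).erase 0 with hY0
  have hY0dvd : ∀ y ∈ Y0, ∃ i, ¬ (P : ℤ) ∣ y i := by
    intro y hy
    rw [hY0, Finset.mem_erase] at hy
    exact hPdvd y hy.2 hy.1
  have hY0card : 8 * Y0.card ≤ P := by
    have h1 : (Y0.card : ℝ) ≤ (lat C₀ R).card := by
      exact_mod_cast Finset.card_erase_le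
    exact aux_Y0card3 hBig.2.2 δ hδ0 hδ8 V₀ hV₀ R P _ hRd (h1.trans hY0c) hP2
  have hUcard : (Fintype.card U : ℝ) ≤ (8 * (n : ℝ)) ^ t := by
    have h1 : Fintype.card U ≤ (2 * (2 * (2 * n))) ^ t := by
      rw [Fintype.card_coe, ← card_hbox]
      exact Finset.card_filter_le _ _
    have h2 : (Fintype.card U : ℝ) ≤ (((2 * (2 * (2 * n))) ^ t : ℕ) : ℝ) := by exact_mod_cast h1
    refine h2.trans (le_of_eq ?_)
    push_cast
    ring
  obtain ⟨r', ρ, hne, hvoid⟩ := hW₀fun θ hθ U (fun u => lat (B' u) R) ((R : ℝ) ^ d * V₁) W Q P Y0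
    (hUcard.trans hnum1) hW hQ1 hQ2 hgood hP1 hP2 hY0dvd hY0card
  have hcardG : (Fintype.card (ZMod P × (Fin (mstar2 d) → ZMod 2)) : ℝ) = (P : ℝ) * 2 ^ mstar2 d := by
    simp [Fintype.card_prod, ZMod.card, Fintype.card_fun]
  have hm := hBig.2.1
  set ε : ℝ := (1 / 2 : ℝ) ^ (mstar2 d / 4) with hε
  have hε0 : 0 < ε := by positivity
  have hε1 : ε < 1 / 2 := by
    have h1 : (1 / 2 : ℝ) ^ (mstar2 d / 4) ≤ (1 / 2 : ℝ) ^ 2 :=
      pow_le_pow_of_le_one (by norm_num) (by norm_num) (by omega)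
    rw [hε]
    norm_num at h1 ⊢
    linarith
  have hcardmul : ∀ (S : Finset (ZMod P × (Fin (mstar2 d) → ZMod 2))), ((S.card : ℝ) ≤ ε * ((P : ℝ) * 2 ^ mstar2 d)) →
      (S.card : ℝ) ≤ ε * (Fintype.card (ZMod P × (Fin (mstar2 d) → ZMod 2)) : ℝ) := by
    intro S hS
    rw [hcardG]
    exact hS
  -- the family of lattice points
  let A : (Fin t → ℤ) → Finset (Fin d → ℤ) := fun u =>
    if hu : u ∈ gHeightsS t n then lat (B' ⟨u, hu⟩) R else ∅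
  have hAeq : ∀ u (hu : u ∈ gHeightsS t n), A u = lat (B' ⟨u, hu⟩) R := fun u hu => dif_pos hu
  have hAne : ∀ u (hu : u ∉ gHeightsS t n), A u = ∅ := fun u hu => dif_neg hu
  have hA : ∀ u : Fin t → ℤ, (∀ i, -((2 * n : ℕ) : ℤ) ≤ u i ∧ u i < 2 * ((2 * n : ℕ) : ℤ)) → ∀ a ∈ A u,
      ((1 - 2 * δ)⁻¹ • ((fun i => (a i : ℝ) / R) - (2 * δ) • cy),
        (1 - 2 * δ)⁻¹ • (fun i => (u i : ℝ) / ((2 * n : ℕ) : ℝ))) ∈ K' := by
    intro u _ a ha
    by_cases hu' : u ∈ gHeightsS t n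
    · rw [hAeq u hu'] at ha
      have h1 := (mem_lat (hB'K ⟨u, hu'⟩).isBounded hR a).mp ha
      exact hB'mem ⟨u, hu'⟩ _ h1
    · rw [hAne u hu'] at ha
      simp at ha
  let σ : (Fin t → ℤ) → ℝ := fun u => if u ∈ gHeightsS t n then ε else 1
  have hσ : ∀ u, 0 < σ u := by
    intro u
    simp only [σ]
    split_ifs
    · exact hε0
    · exact one_pos
  have hG0 : (0 : ℝ) ≤ Fintype.card (ZMod P × (Fin (mstar2 d) → ZMod 2)) := Nat.cast_nonneg _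
  have hvoid' : ∀ [DecidableEq (ZMod P × (Fin (mstar2 d) → ZMod 2))],
      ∀ u : Fin t → ℤ, (∀ i, -((2 * n : ℕ) : ℤ) ≤ u i ∧ u i < 2 * ((2 * n : ℕ) : ℤ)) →
      (((univ \ (A u).image (hash r' ρ) : Finset (ZMod P × (Fin (mstar2 d) → ZMod 2)))).card : ℝ) ≤
        σ u * Fintype.card (ZMod P × (Fin (mstar2 d) → ZMod 2)) := by
    intro _ u _
    by_cases hu' : u ∈ gHeightsS t n
    · have hσu : σ u = ε := if_pos hu'
      rw [hσu]
      have h1 := hvoid ⟨u, hu'⟩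
      apply hcardmul
      convert h1 using 3
      ext c
      simp only [Finset.mem_sdiff, Finset.mem_univ, true_and, Finset.mem_image, Finset.mem_filter,
        hAeq u hu', not_exists, not_and]
    · have hσu : σ u = 1 := if_neg hu'
      rw [hσu, one_mul]
      exact_mod_cast Finset.card_le_univ _
  have hu0 : (0 : Fin t → ℤ) ∈ gHeightsS t n := by
    rw [mem_gHeightsS]
    constructor
    · intro i
      have : (0 : ℤ) < ((2 * (2 * n) : ℕ) : ℤ) := by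
        have : 0 < 2 * (2 * n) := by omega
        exact_mod_cast this
      simp only [Pi.zero_apply]
      omega
    · have h0 : Qf (fun i : Fin t => (((0 : Fin t → ℤ) i : ℤ) : ℝ) / ((2 * n : ℕ) : ℝ)) = 0 := by
        simp [Qf]
      rw [h0]
      positivity
  have hsurj : Function.Surjective (hash r' ρ) :=
    surj_of_large (hash r' ρ) (lat (B' ⟨0, hu0⟩) R) ε hε1 (hcardmul _ (hvoid ⟨0, hu0⟩))
  have hinj : Set.InjOn (hash r' ρ) (lat C₁ R : Set (Fin d → ℤ)) :=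
    aux_inj (hash r' ρ) C₁ C₀ hC₁K hC₀K hsym hadd R hR hne
  have he0 : e02 d = efin2 d + mstar2 d := rfl
  have hcardle : (P : ℝ) * 2 ^ mstar2 d ≤ (R : ℝ) ^ d * V₀ :=
    aux_cardle3 δ hκ0 hκ1 V₀ hV₀ R P hRd hPpos hP1
  have hdel4 : δ / 4 = 1 / (4 * (n : ℝ)) := by
    rw [hδ]
    field_simp
  have hZle : ((3 * (((2 * n : ℕ) : ℝ))) ^ t) ^ (2 ^ t - 1) ≤ ((8 * (n : ℝ)) ^ t) ^ (2 ^ t - 1) := by
    apply pow_le_pow_left₀ (by positivity)
    apply pow_le_pow_left₀ (by positivity)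
    push_cast
    nlinarith
  have hnum2' : ((3 * (((2 * n : ℕ) : ℝ))) ^ t) ^ (2 ^ t - 1) * ε ^ leafS t <
      (1 / 2) * (1 / (4 * (n : ℝ))) ^ d :=
    lt_of_le_of_lt (mul_le_mul_of_nonneg_right hZle (by positivity)) hnum2
  have hcount : ∀ u : Fin t → ℤ, (∀ i, 0 ≤ u i ∧ u i < ((2 * n : ℕ) : ℤ)) →
      ∃ κ : Fin t → ℤ, (∀ i, κ i = 0 ∨ κ i = 1) ∧
      ((3 * (((2 * n : ℕ) : ℝ))) ^ t) ^ (2 ^ t - 1) *
        (∏ q : Fin t → Bool, σ ((fun i => u i + κ i * ((2 * n : ℕ) : ℤ)) - qshift (((2 * n : ℕ) : ℤ)) q)) *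
      Fintype.card (ZMod P × (Fin (mstar2 d) → ZMod 2)) < (lat C₁ R).card := by
    intro u hu
    obtain ⟨κ, hκ, hc⟩ := leaf_count_star ht1000 hn8 u hu
    refine ⟨κ, hκ, ?_⟩
    rw [hcardG]
    have hprod := prod_sigma_le_star hn0 ε hε0 (by linarith) u κ hu hκ σ (fun w => rfl) hc
    exact aux_count (n : ℝ) hnR0 _ _ _ _ V₀ _ _ δ hdel4 (by positivity) (by positivity) hprod
      (by positivity) hV₀ hRd hnum2' hcardle hY1c
  have hwin' : ∀ x : Fin t → ℝ, ∑ i, x i ^ 2 ≤ (13 / 50) * (t : ℝ) →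
      ENNReal.ofReal V₀ ≤ volume {y : Fin d → ℝ | (y, x) ∈ K'} := fun x hx =>
    hwin x ((Qf_le_sum x).trans hx)
  have hcov := abstract_cover3 (G := ZMod P × (Fin (mstar2 d) → ZMod 2)) K' hK'c δ hδ0 hδ1 (2 * n)
    (by omega) (by
      rw [hδ]
      push_cast
      field_simp
      exact le_refl _) cy hcy (by
      exact aux_win K' V₀ hV₀ hwin')
    C₁ hsym hC R hR (by
      intro τ hτ
      apply hball
      intro i
      rw [abs_of_nonneg (hτ i).1]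
      exact (hτ i).2.trans hRr) (hash r' ρ) hsurj A hA (lat C₁ R)
    (fun m hm => (mem_lat hC₁K.isBounded hR m).mp hm) hinj σ hσ (@hvoid' (fun a b => Classical.propDecidable (a = b))) hcount
  obtain ⟨B, hdet, hB⟩ := hcov
  refine ⟨B, R, hR, hB, ?_⟩
  have hdet' : |(B.det : ℝ)| = (P : ℝ) * 2 ^ mstar2 d := by
    rw [← hcardG]
    have h1 : ((|B.det| : ℤ) : ℝ) = ((Fintype.card (ZMod P × (Fin (mstar2 d) → ZMod 2)) : ℤ) : ℝ) := by
      rw [hdet]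
    simpa using h1
  rw [hdet', ← hκ, div_le_iff₀ (by positivity)]
  have h2 : (2 : ℝ) ^ (e02 d + 2) = 2 ^ mstar2 d * 2 ^ (efin2 d + 2) := by
    rw [he0, ← pow_add]
    congr 1
    ring
  rw [h2] at hP2
  calc (R : ℝ) ^ d * ((1 - 2 * δ) ^ d * V₀) ≤ 2 ^ mstar2 d * 2 ^ (efin2 d + 2) * (P : ℝ) := hP2
    _ = _ := by ring

end Vale.Agent.Lib.P230.Star
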