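import Vale.Agent.Lib.P230.Star.Defs

/-!
# P230 star route: the matrix `S = c (1 - α 1 1ᵀ)`.
-/

set_option autoImplicit false

open Finset Matrix

namespace Vale.Agent.Lib.P230.Star

/-- `S = c (1 - α 1 1ᵀ)`, `r = √(t+1)`, `α = 1/(r (r+1))`: determinant `c^t / r`, and
`∑ (S x) i ^ 2 = c ^ 2 * Qf x`. -/
theorem star_matrix (t : ℕ) (c : ℝ) (hc : 0 < c) : ∃ S : Matrix (Fin t) (Fin t) ℝ,
    S.det = c ^ t / Real.sqrt ((t : ℝ) + 1) ∧
    ∀ x : Fin t → ℝ, ∑ i, (S.mulVec x) i ^ 2 = c ^ 2 * Qf x := by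
  have _ := hc
  have ht1 : (0 : ℝ) < (t : ℝ) + 1 := by positivity
  set r : ℝ := Real.sqrt ((t : ℝ) + 1) with hr
  have hrpos : 0 < r := Real.sqrt_pos.mpr ht1
  have hr2 : r * r = (t : ℝ) + 1 := Real.mul_self_sqrt ht1.le
  set α : ℝ := 1 / (r * (r + 1)) with hα
  have hr1 : r + 1 ≠ 0 := by positivity
  have hrne : r ≠ 0 := hrpos.ne'
  have htr : (t : ℝ) = r * r - 1 := by linarith
  let u : Fin t → ℝ := fun _ => -α
  let v : Fin t → ℝ := fun _ => 1
  let M : Matrix (Fin t) (Fin t) ℝ := 1 + replicateCol Unit u * replicateRow Unit v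
  refine ⟨c • M, ?_, ?_⟩
  · have hdet : M.det = 1 + v ⬝ᵥ u := Matrix.det_one_add_replicateCol_mul_replicateRow u v
    have hdot : v ⬝ᵥ u = -((t : ℝ) * α) := by
      simp [dotProduct, u, v, Finset.sum_const, Finset.card_univ]
    rw [Matrix.det_smul, hdet, hdot, Fintype.card_fin]
    have h1 : 1 + -((t : ℝ) * α) = 1 / r := by
      rw [hα, htr]
      field_simp
      ring
    rw [h1]
    field_simp
  · intro x
    have hmul : ∀ i, ((c • M).mulVec x) i = c * (x i - α * ∑ j, x j) := by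
      intro i
      have hM : ∀ j, M i j = (1 : Matrix (Fin t) (Fin t) ℝ) i j - α := by
        intro j
        simp [M, Matrix.add_apply, Matrix.mul_apply, u, v, sub_eq_add_neg]
      have : (M.mulVec x) i = x i - α * ∑ j, x j := by
        simp only [Matrix.mulVec, dotProduct, hM, sub_mul, Finset.sum_sub_distrib, Finset.mul_sum]
        simp [Matrix.one_apply]
      rw [Matrix.smul_mulVec, Pi.smul_apply, this, smul_eq_mul]
    simp_rw [hmul, mul_pow, ← Finset.mul_sum]
    congr 1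
    unfold Qf
    set s : ℝ := ∑ j, x j with hs
    have hexp : ∑ i, (x i - α * s) ^ 2 = ∑ i, x i ^ 2 - 2 * α * s * s + (t : ℝ) * (α * s) ^ 2 := by
      have : ∀ i, (x i - α * s) ^ 2 = x i ^ 2 - 2 * α * s * x i + (α * s) ^ 2 := fun i => by ring
      simp_rw [this, Finset.sum_add_distrib, Finset.sum_sub_distrib, ← Finset.mul_sum, ← hs]
      simp [Finset.sum_const, Finset.card_univ]
    rw [hexp]
    have hkey : 2 * α - (t : ℝ) * α ^ 2 = 1 / ((t : ℝ) + 1) := by
      rw [hα, ← hr2, htr]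
      field_simp
      ring
    have : s ^ 2 / ((t : ℝ) + 1) = (2 * α - (t : ℝ) * α ^ 2) * s ^ 2 := by
      rw [hkey]; ring
    rw [this]
    ring

end Vale.Agent.Lib.P230.Star
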