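import Vale.Agent.Lib.P230.Star.Defs
import Vale.Agent.Lib.P230.Lin.Lattice3
import Vale.Agent.Lib.P230.Lin.Params3

/-!
# P230 star route: statements of the modules (stubs, do not import in landed modules).
Target: `Theta_L(n) ≤ n (log n)^(6/5)`.
-/

set_option autoImplicit false

open MeasureTheory Finset
open scoped ENNReal Matrix

namespace Vale.Agent.Lib.P230.Star

open Vale.Agent.Lib.P230 Vale.Agent.Lib.P230.Lin

variable {d t : ℕ}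

/-- MODULE S1 (StarCount.lean), imports Star.Defs only (plus Mathlib).
Proof. `N = 2 n`. For `j ∈ [0, N)` put `z i = u i` if `j ≤ u i`, else `u i + N` (`κ i = 0` or `1`), so
`y i = (z i - j) / N ∈ [0,1)`, `μ = j / N`. For `x i = (z i - N q i) / N` we have `x i - μ = y i - q i`,
`Qf x ≤ μ² + ∑ (x i - μ)²` (because `μ² + ∑ (x i - μ)² - Qf x = (t+1) (μ - (∑ x i)/(t+1))² ≥ 0`), and
`μ² ≤ 1 ≤ t/1000`. Weights: flip probability `p = 69/200`: `wt y b = 131/200` at the rounding of `y`, `69/200`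
at the other bit. Mean cost at `y` with `m = min (y, 1-y)`: `c y = m² + p (1 - 2 m)`. As `j` runs over `[0,N)`,
`(z i - j)` runs over all of `[0,N)` exactly once (for each fixed `i`), so
`∑_j ∑_i c (y i) = t ∑_{r<N} c (r/N)`, and `∑_{r<N} min(r,N-r) = N²/4`, `∑_{r<N} min(r,N-r)² = (N³+2N)/12`
(`N` even), so `∑_{r<N} c (r/N) = N (1/12 + 1/(6N²) + p/2)`. Pick `j` with `∑_i c (y i) ≤ t (1/12 + 1/(6N²) + p/2)
≤ (25584/100000) t`. Then as in `leaf_count` (Ball/LeafCount.lean, copy it): Markov with threshold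
`(513/2000) t` gives weight `≥ 1/400` on good vertices; Young with exponent 21/20 (`x^21 ≤ y^20` gives
`x ≤ (20/21)(y/ζ) + (1/21) ζ^20`; Bernoulli `one_add_mul_le_pow`), `s₀ = 641289/10^6`, `s₁ = 327123/10^6`,
`(s₀+s₁)^20 * 19/10 ≤ 1`, gives `count ≥ 10^(-60) (19/10)^t`. -/
theorem leaf_count_star {t n : ℕ} (ht : 1000 ≤ t) (hn : 1000 ≤ n) (u : Fin t → ℤ)
    (hu : ∀ i, 0 ≤ u i ∧ u i < ((2 * n : ℕ) : ℤ)) :
    ∃ κ : Fin t → ℤ, (∀ i, κ i = 0 ∨ κ i = 1) ∧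
      leafS t ≤ (univ.filter fun q : Fin t → Bool =>
        Qf (fun i => (((u i + κ i * ((2 * n : ℕ) : ℤ) - (if q i then ((2 * n : ℕ) : ℤ) else 0) : ℤ)) : ℝ) /
          ((2 * n : ℕ) : ℝ)) ≤ (103 / 400) * (t : ℝ)).card := by
  sorry

/-- MODULE S4 (StarMat.lean), imports Star.Defs only. `S = c (1 - α 1 1ᵀ)`, `r = √(t+1)`, `α = 1/(r (r+1))`:
`(S x) i = c (x i - α ∑ x)`, `∑ (S x) i ² = c² (∑ x² - (2α - α² t)(∑ x)²)`, `2α - α² t = 1/r²`;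
`det (1 - α 1 1ᵀ) = 1 - α t = 1/r` (`Matrix.det_one_add_replicateCol_mul_replicateRow`). -/
theorem star_matrix (t : ℕ) (c : ℝ) (hc : 0 < c) : ∃ S : Matrix (Fin t) (Fin t) ℝ,
    S.det = c ^ t / Real.sqrt ((t : ℝ) + 1) ∧
    ∀ x : Fin t → ℝ, ∑ i, (S.mulVec x) i ^ 2 = c ^ 2 * Qf x := by
  sorry

/-- MODULE S5 (StarLattice.lean): copy of `Lin.lattice_data3` (Lin/Lattice3.lean and Ball/Lattice2.lean) with
heights in `hbox t (2 N)`, `N = 2 n`, good heights `Qf (u/N) ≤ (103/400) t` (`Qf` is homogeneous of degree 2,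
`0 ≤ Qf x ≤ ∑ x²` by Cauchy-Schwarz, so `aux_dil`, `aux_win` still apply), `leaf_count_star`, `abstract_cover3`
and `layering_leaf3` from Star/Layer3.lean, Star/Erosion3.lean (helper69, see the stubs below). -/
theorem lattice_data_star : ∃ d₀ : ℕ, ∀ d ≥ d₀, ∀ t n : ℕ, n = d + t → 1000 ≤ n → 1000 ≤ t →
    ((8 * (n : ℝ)) ^ t ≤ 2 ^ (mstar2 d / 16)) →
    (((8 * (n : ℝ)) ^ t) ^ (2 ^ t - 1) * ((1 / 2 : ℝ) ^ (mstar2 d / 4)) ^ (leafS t) <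
      (1 / 2) * (1 / (4 * (n : ℝ))) ^ d) →
    ∀ K' : Set ((Fin d → ℝ) × (Fin t → ℝ)), Convex ℝ K' → IsCompact K' → ∀ V₀ : ℝ, 0 < V₀ →
    (∀ x : Fin t → ℝ, Qf x ≤ (13 / 50) * (t : ℝ) →
      ENNReal.ofReal V₀ ≤ volume {y : Fin d → ℝ | (y, x) ∈ K'}) →
    ∃ (B : Matrix (Fin d ⊕ Fin t) (Fin d ⊕ Fin t) ℤ) (R : ℕ), 0 < R ∧
      (∀ x : (Fin d → ℝ) × (Fin t → ℝ), ∃ k : Fin d ⊕ Fin t → ℤ,
        (x.1 - (fun i => ((B.mulVec k (Sum.inl i) : ℤ) : ℝ) / R),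
          x.2 - (fun i => ((B.mulVec k (Sum.inr i) : ℤ) : ℝ))) ∈ K') ∧
      (R : ℝ) ^ d * ((1 - 2 / (n : ℝ)) ^ d * V₀) / 2 ^ (efin2 d + 2) ≤ |(B.det : ℝ)| := by
  sorry

/-- MODULE S6 (StarParams.lean), copy of `Lin.params3` (Lin/Params3.lean). `L = clog 2 (8 n)`, `t` least with
`(19/10)^t ≥ 10^72 L`, so `leafS t ≥ 10^12 L`, and `(208/97)^100 ≤ (19/10)^119` (true, ratio .907). So
`(208/97)^t ≤ C (log n)^(119/100)`, and `√(t+1)` is `≤ C log log n`; `2^efin2 d` is linear in `d`. -/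
theorem params_star (d₀ : ℕ) : ∃ n₀ : ℕ, ∀ n ≥ n₀, ∃ d t : ℕ,
    d + t = n ∧ 1000 ≤ t ∧ d₀ ≤ d ∧ 1000 ≤ n ∧
    ((8 * (n : ℝ)) ^ t ≤ 2 ^ (mstar2 d / 16)) ∧
    (((8 * (n : ℝ)) ^ t) ^ (2 ^ t - 1) * ((1 / 2 : ℝ) ^ (mstar2 d / 4)) ^ (leafS t) <
      (1 / 2) * (1 / (4 * (n : ℝ))) ^ d) ∧
    (1600000 * (t : ℝ) * ((400 * (t : ℝ) + 3) * 1660) ^ t ≤ Real.sqrt (Real.sqrt n)) ∧
    ((10 / 9) * (16000000 * (208 / 97) ^ t) * Real.sqrt ((t : ℝ) + 1) * ((1 - 2 / (n : ℝ))⁻¹) ^ d *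
        2 ^ (efin2 d + 2) ≤ (n : ℝ) * (Real.log n) ^ (6 / 5 : ℝ)) := by
  sorry

end Vale.Agent.Lib.P230.Star
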